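import Vale.Agent.P093.Defs

/-! P093 Cfc (TASK). Roots and dimension functions. Helper names start with `cfc_`.
`CFC.rpow_def`, `cfc_nnreal_le_iff` (or `cfc_le_cfc`-type lemmas), `cfc_id'`, `cfc_one`, `CFC.le_one_iff`; for `0 ≤ x ≤ 1` and `0 < s ≤ 1`, `x ≤ x ^ s ≤ 1`. For a projection the spectrum lies in `{0, 1}` (`IsIdempotentElem.spectrum_subset`), `cfc_congr`.
`unit_of`: `b = star b * b + star d * d`, `1 - b = star (1 - b) * (1 - b) + star d * d`.
`tr_mono`: `StarOrderedRing.le_iff`, closure induction, `(star z * z) i i = ∑ j, star (z j i) * z j i` (`CStarMatrix.mul_apply`, `CStarMatrix.star_apply`). Prove the first three lemmas for a general `B` and apply them (real functional calculus instances are not found directly for `CStarMatrix`).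
`le_dimFn`: `le_limsup_of_frequently_le` with the bound `n`. -/

open Filter Topology Set

noncomputable section

namespace Vale.Agent.P093

section

variable {B : Type} [CStarAlgebra B] [PartialOrder B] [StarOrderedRing B] {b d : B}

theorem rt_proj (hb : star b = b) (h : b * b = b) (m : ℕ) : rt b m = b := by
  have h0 : 0 ≤ b := by
    have := star_mul_self_nonneg b
    rwa [hb, h] at this
  have hs : IsSelfAdjoint b := hb
  have hi : IsIdempotentElem b := h
  unfold rt
  rw [CFC.rpow_eq_cfc_real h0]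
  conv_rhs => rw [← cfc_id' ℝ b]
  refine cfc_congr fun x hx => ?_
  have hm : ((m : ℝ) + 1)⁻¹ ≠ 0 := by positivity
  rcases hi.spectrum_subset ℝ hx with rfl | rfl
  · exact Real.zero_rpow hm
  · exact Real.one_rpow _

theorem le_rt (h0 : 0 ≤ b) (h1 : b ≤ 1) (m : ℕ) : b ≤ rt b m ∧ rt b m ≤ 1 := by
  have hs : IsSelfAdjoint b := h0.isSelfAdjoint
  have hx0 : ∀ x ∈ spectrum ℝ b, 0 ≤ x := fun x hx => spectrum_nonneg_of_nonneg h0 hx
  have hx1 : ∀ x ∈ spectrum ℝ b, x ≤ 1 := (CFC.le_one_iff (R := ℝ) b).1 h1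
  have hm : 0 ≤ ((m : ℝ) + 1)⁻¹ := by positivity
  have hm1 : ((m : ℝ) + 1)⁻¹ ≤ 1 := inv_le_one_of_one_le₀ (by simp)
  unfold rt
  rw [CFC.rpow_eq_cfc_real h0]
  refine ⟨?_, cfc_le_one _ _ fun x hx => Real.rpow_le_one (hx0 x hx) (hx1 x hx) hm⟩
  conv_lhs => rw [← cfc_id' ℝ b]
  refine cfc_mono (fun x hx => ?_) (by fun_prop) (Real.continuous_rpow_const hm).continuousOn
  exact Real.self_le_rpow_of_le_one (hx0 x hx) (hx1 x hx) hm1

theorem unit_of (hb : star b = b) (hd : b - b * b = star d * d) : 0 ≤ b ∧ b ≤ 1 := by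
  constructor
  · have e : b = star b * b + star d * d := by rw [hb, ← hd]; abel
    rw [e]
    exact add_nonneg (star_mul_self_nonneg b) (star_mul_self_nonneg d)
  · have e : 1 - b = star (1 - b) * (1 - b) + star d * d := by
      rw [star_sub, star_one, hb, ← hd]
      noncomm_ring
    rw [← sub_nonneg, e]
    exact add_nonneg (star_mul_self_nonneg _) (star_mul_self_nonneg d)

end

variable {A : Type} [CStarAlgebra A] [PartialOrder A] [StarOrderedRing A] {n : ℕ}
  {τ : A →ₗ[ℂ] ℂ} {a b : CStarMatrix (Fin n) (Fin n) A}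

theorem tr_mono (hτ : IsTracial τ) (h : a ≤ b) :
    (τ (∑ i, a i i)).re ≤ (τ (∑ i, b i i)).re := by
  obtain ⟨p, hp, rfl⟩ := (StarOrderedRing.le_iff a b).1 h
  have key : 0 ≤ (τ (∑ i, p i i)).re := by
    clear h
    induction hp using AddSubmonoid.closure_induction with
    | mem x hx =>
      obtain ⟨z, rfl⟩ := hx
      simp only [CStarMatrix.mul_apply, CStarMatrix.star_apply, map_sum, Complex.re_sum]
      exact Finset.sum_nonneg fun i _ => Finset.sum_nonneg fun j _ =>
        (Complex.le_def.1 (hτ.2.1 (z j i))).1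
    | zero => simp [CStarMatrix.zero_apply]
    | add x y _ _ hx hy =>
      simp only [CStarMatrix.add_apply, Finset.sum_add_distrib, map_add, Complex.add_re]
      exact add_nonneg hx hy
  simp only [CStarMatrix.add_apply, Finset.sum_add_distrib, map_add, Complex.add_re]
  exact le_add_of_nonneg_right key

theorem dimFn_proj (τ : A →ₗ[ℂ] ℂ) (ha : star a = a) (h : a * a = a) :
    dimFn τ a = (τ (∑ i, a i i)).re := by
  unfold dimFn
  simp only [rt_proj ha h]
  exact limsup_const _

theorem le_dimFn (hτ : IsTracial τ) (h0 : 0 ≤ b) (h1 : b ≤ 1) :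
    (τ (∑ i, b i i)).re ≤ dimFn τ b := by
  unfold dimFn
  refine le_limsup_of_frequently_le (Frequently.of_forall fun m => tr_mono hτ (le_rt h0 h1 m).1) ?_
  exact isBoundedUnder_of ⟨_, fun m => tr_mono hτ (le_rt h0 h1 m).2⟩

end Vale.Agent.P093
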