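import Vale.Agent.P093.Defs

/-! P093 Emb (TASK). Products of spheres in cubes, the Hopf map, Bott matrices. Helper names start with `emb_`.
`emb_inj` (helper): by induction on `t` a continuous injective map `j t : (Fin t → S2) × [0, 1] → (Fin (2 t + 1) → ℝ)` with values in `[0, 1]`: `j 0 (_, s) = fun _ => s`; `j (t + 1) (ω, s) = Fin.snoc (Fin.snoc (j t (tail ω, y 0)) (y 1)) (y 2)` (or `Fin.cons`) with `y c = 1 / 2 + (1 + s) * ω 0 c / 4 ∈ [0, 1]`; `y` determines `(1 + s) ^ 2` and so `s` and `ω 0`.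
`exists_emb`: restrict to `s = 0`, `Continuous.isClosedEmbedding` (`S2` is compact), extend the coordinates by Tietze (`ContinuousMap.exists_extension` with real values) to `ρ₀`, and retract: `ρ y i = (max 1 √(∑ c, ρ₀ y i c ^ 2))⁻¹ • ρ₀ y i`.
`exists_hopf`: `H u = (u 0 ^ 2 - u 1 ^ 2 - u 2 ^ 2, 2 u 0 u 1, 2 u 0 u 2) / ∑ c, u c ^ 2` for `u ≠ 0`, a fixed point for `u = 0`.
The matrix lemmas: `ext`, case distinction, `Fintype.sum_sum_type`, `Fintype.sum_prod_type`, `Fin.sum_univ_two`, `Complex.I_sq`. -/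

open Filter Topology Set

noncomputable section

namespace Vale.Agent.P093

theorem emb_abs (ω : S2) (c : Fin 3) : |ω.1 c| ≤ 1 := by
  have h := Finset.single_le_sum (f := fun c => ω.1 c ^ 2) (fun _ _ => sq_nonneg _) (Finset.mem_univ c)
  rw [ω.2] at h
  exact (sq_le_one_iff_abs_le_one _).1 h

theorem emb_cpt : CompactSpace S2 := by
  refine isCompact_iff_compactSpace.1 (show IsCompact {ω : Fin 3 → ℝ | ∑ c, ω c ^ 2 = 1} from ?_)
  refine (isCompact_Icc (a := fun _ => -1) (b := fun _ => 1)).of_isClosed_subset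
    (isClosed_eq (by fun_prop) continuous_const) fun ω h => ?_
  exact ⟨fun c => (abs_le.1 (emb_abs ⟨ω, h⟩ c)).1, fun c => (abs_le.1 (emb_abs ⟨ω, h⟩ c)).2⟩

theorem emb_y (ω : S2) {s : ℝ} (hs : s ∈ Icc (0 : ℝ) 1) (c : Fin 3) :
    1 / 2 + (1 + s) * ω.1 c / 4 ∈ Icc (0 : ℝ) 1 := by
  obtain ⟨h1, h2⟩ := abs_le.1 (emb_abs ω c)
  obtain ⟨h3, h4⟩ := hs
  constructor <;> nlinarith

theorem emb_det {ω ω' : S2} {s s' : ℝ} (hs : s ∈ Icc (0 : ℝ) 1) (hs' : s' ∈ Icc (0 : ℝ) 1)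
    (h : ∀ c, (1 + s) * ω.1 c = (1 + s') * ω'.1 c) : ω = ω' ∧ s = s' := by
  have h1 : (1 + s) ^ 2 = (1 + s') ^ 2 := by
    calc (1 + s) ^ 2 = ∑ c, ((1 + s) * ω.1 c) ^ 2 := by
          simp_rw [mul_pow]; rw [← Finset.mul_sum, ω.2, mul_one]
      _ = ∑ c, ((1 + s') * ω'.1 c) ^ 2 := by simp_rw [h]
      _ = _ := by simp_rw [mul_pow]; rw [← Finset.mul_sum, ω'.2, mul_one]
  have h2 : s = s' := by
    have := (sq_eq_sq₀ (by linarith [hs.1]) (by linarith [hs'.1])).1 h1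
    linarith
  subst h2
  exact ⟨Subtype.ext (funext fun c => mul_left_cancel₀ (by linarith [hs.1]) (h c)), rfl⟩

theorem emb_inj (t : ℕ) : ∃ j : (Fin t → S2) × ℝ → Fin (2 * t + 1) → ℝ, Continuous j ∧
    (∀ ω s, s ∈ Icc (0 : ℝ) 1 → ∀ a, j (ω, s) a ∈ Icc (0 : ℝ) 1) ∧
    ∀ ω s ω' s', s ∈ Icc (0 : ℝ) 1 → s' ∈ Icc (0 : ℝ) 1 → j (ω, s) = j (ω', s') →
      ω = ω' ∧ s = s' := by
  induction t with
  | zero =>
    exact ⟨fun p _ => p.2, by fun_prop, fun _ _ h _ => h,
      fun ω s ω' s' _ _ h => ⟨Subsingleton.elim _ _, congrFun h 0⟩⟩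
  | succ t ih =>
    obtain ⟨j, hc, hm, hi⟩ := ih
    let y : (Fin (t + 1) → S2) × ℝ → Fin 3 → ℝ := fun p c => 1 / 2 + (1 + p.2) * (p.1 0).1 c / 4
    have hy : ∀ c, Continuous fun p => y p c := fun c => by
      have : Continuous fun p : (Fin (t + 1) → S2) × ℝ => (p.1 0).1 c :=
        (continuous_apply c).comp (continuous_subtype_val.comp ((continuous_apply 0).comp continuous_fst))
      exact continuous_const.add (((continuous_const.add continuous_snd).mul this).div_const _)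
    let J : (Fin (t + 1) → S2) × ℝ → Fin (2 * t + 1 + 1 + 1) → ℝ := fun p =>
      Fin.cons (y p 2) (Fin.cons (y p 1) (j (fun i => p.1 i.succ, y p 0)))
    refine ⟨J, continuous_pi fun a => ?_, fun ω s hs a => ?_, fun ω s ω' s' hs hs' h => ?_⟩
    · refine Fin.cases (motive := fun a : Fin (2 * t + 1 + 1 + 1) => Continuous fun p => J p a)
        (hy 2) (fun a => Fin.cases (hy 1) (fun a => ?_) a) a
      exact (continuous_apply a).comp (hc.comp (Continuous.prodMk (by fun_prop) (hy 0)))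
    · refine Fin.cases (motive := fun a : Fin (2 * t + 1 + 1 + 1) => J (ω, s) a ∈ Icc (0 : ℝ) 1)
        (emb_y _ hs 2) (fun a => Fin.cases (emb_y _ hs 1) (fun a => ?_) a) a
      exact hm _ _ (emb_y _ hs 0) a
    · have h' : J (ω, s) = J (ω', s') := h
      have h2 : y (ω, s) 2 = y (ω', s') 2 := congrFun h' 0
      have h1 : y (ω, s) 1 = y (ω', s') 1 := congrFun h' (Fin.succ 0)
      obtain ⟨h3, h0⟩ := hi (fun i => ω i.succ) (y (ω, s) 0) (fun i => ω' i.succ) (y (ω', s') 0)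
        (emb_y _ hs 0) (emb_y _ hs' 0) (funext fun a => congrFun h' a.succ.succ)
      simp only [y] at h0 h1 h2
      obtain ⟨h4, h5⟩ := emb_det (ω := ω 0) (ω' := ω' 0) hs hs' fun c => by
        fin_cases c
        · show (1 + s) * (ω 0).1 0 = (1 + s') * (ω' 0).1 0
          linarith
        · show (1 + s) * (ω 0).1 1 = (1 + s') * (ω' 0).1 1
          linarith
        · show (1 + s) * (ω 0).1 2 = (1 + s') * (ω' 0).1 2
          linarith
      exact ⟨funext fun i => Fin.cases h4 (fun i => congrFun h3 i) i, h5⟩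

theorem exists_emb (t : ℕ) : ∃ (j : (Fin t → S2) → Fin (2 * t + 1) → unitInterval)
    (ρ : (Fin (2 * t + 1) → ℝ) → Fin t → Fin 3 → ℝ), Continuous j ∧ Continuous ρ ∧
      (∀ y i, ∑ c, ρ y i c ^ 2 ≤ 1) ∧ ∀ ω i, ρ (fun a => j ω a) i = (ω i).1 := by
  obtain ⟨j, hc, hm, hi⟩ := emb_inj t
  have := emb_cpt
  have h0 : (0 : ℝ) ∈ Icc (0 : ℝ) 1 := ⟨le_rfl, zero_le_one⟩
  have hc' : Continuous fun ω => j (ω, 0) := hc.comp (by fun_prop)
  have he : IsClosedEmbedding fun ω => j (ω, 0) :=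
    hc'.isClosedEmbedding fun ω ω' h => (hi ω 0 ω' 0 h0 h0 h).1
  obtain ⟨g, hg⟩ := ContinuousMap.exists_extension he
    (⟨fun ω i => (ω i).1, by fun_prop⟩ : C(Fin t → S2, Fin t → Fin 3 → ℝ))
  have hg' : ∀ ω i, g (j (ω, 0)) i = (ω i).1 := fun ω i =>
    congrFun (DFunLike.congr_fun hg ω) i
  refine ⟨fun ω a => ⟨j (ω, 0) a, hm ω 0 h0 a⟩,
    fun y i c => (max 1 (∑ c, g y i c ^ 2))⁻¹ * g y i c,
    continuous_pi fun a => Continuous.subtype_mk ((continuous_apply a).comp hc') _,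
    continuous_pi fun i => continuous_pi fun c => ?_, fun y i => ?_, fun ω i => ?_⟩
  · refine Continuous.mul (Continuous.inv₀ (by fun_prop) fun y => ?_) (by fun_prop)
    exact (zero_lt_one.trans_le (le_max_left _ _)).ne'
  · simp_rw [mul_pow]
    rw [← Finset.mul_sum, inv_pow, inv_mul_le_iff₀ (by positivity), mul_one]
    have h1 := le_max_left 1 (∑ c, g y i c ^ 2)
    have h2 := le_max_right 1 (∑ c, g y i c ^ 2)
    nlinarith
  · funext c
    show (max 1 (∑ c, g (j (ω, 0)) i c ^ 2))⁻¹ * g (j (ω, 0)) i c = _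
    rw [hg', (ω i).2]
    simp

/-- The Hopf map. -/
def emb_v (u : Fin 3 → ℝ) : Fin 3 → ℝ :=
  ![(u 0 ^ 2 - u 1 ^ 2 - u 2 ^ 2) / ∑ c, u c ^ 2, 2 * u 0 * u 1 / ∑ c, u c ^ 2,
    2 * u 0 * u 2 / ∑ c, u c ^ 2]

theorem emb_ne {u : Fin 3 → ℝ} (h : u ≠ 0) : ∑ c, u c ^ 2 ≠ 0 := fun h' =>
  h (funext fun c => pow_eq_zero_iff two_ne_zero |>.1
    ((Finset.sum_eq_zero_iff_of_nonneg fun _ _ => sq_nonneg _).1 h' c (Finset.mem_univ c)))

theorem emb_v_sq {u : Fin 3 → ℝ} (h : u ≠ 0) : ∑ c, emb_v u c ^ 2 = 1 := by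
  have h1 := emb_ne h
  rw [Fin.sum_univ_three]
  simp only [emb_v, Matrix.cons_val_zero, Matrix.cons_val_one, Matrix.cons_val]
  field_simp
  rw [Fin.sum_univ_three]
  ring

theorem exists_hopf : ∃ H : (Fin 3 → ℝ) → S2, ContinuousOn H {u | u ≠ 0} ∧ (∀ u, H (-u) = H u) ∧
    ∀ u, u ≠ 0 → ∀ s s', ((∑ c, u c ^ 2 : ℝ) : ℂ) * bott (H u).1 s s' =
      spin u s * starRingEnd ℂ (spin u s') := by
  classical
  let H : (Fin 3 → ℝ) → S2 := fun u =>
    if h : u = 0 then ⟨![1, 0, 0], by simp [Fin.sum_univ_three]⟩ else ⟨emb_v u, emb_v_sq h⟩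
  have hH : ∀ u, u ≠ 0 → (H u).1 = emb_v u := fun u h => by simp only [H, dif_neg h]
  refine ⟨H, ?_, fun u => ?_, fun u hu s s' => ?_⟩
  · refine IsInducing.subtypeVal.continuousOn_iff.2
      (ContinuousOn.congr (f := emb_v) (continuousOn_pi.2 fun c => ?_) fun u hu => hH u hu)
    fin_cases c
    all_goals
      simp only [emb_v]
      exact ContinuousOn.div (by fun_prop) (by fun_prop) fun u hu => emb_ne hu
  · by_cases h : u = 0
    · rw [h, neg_zero]
    · apply Subtype.ext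
      rw [hH u h, hH (-u) (neg_ne_zero.2 h)]
      simp [emb_v]
  · rw [hH u hu]
    have h1 : ((∑ c, u c ^ 2 : ℝ) : ℂ) ≠ 0 := Complex.ofReal_ne_zero.2 (emb_ne hu)
    have h2 : ((∑ c, u c ^ 2 : ℝ) : ℂ) = u 0 ^ 2 + u 1 ^ 2 + u 2 ^ 2 := by
      rw [Fin.sum_univ_three]
      push_cast
      rfl
    have h3 : ∀ a : ℝ, ((a / ∑ c, u c ^ 2 : ℝ) : ℂ) = a / (u 0 ^ 2 + u 1 ^ 2 + u 2 ^ 2) := fun a => by
      rw [Complex.ofReal_div, h2]
    rw [h2] at h1 ⊢
    fin_cases s <;> fin_cases s' <;> simp [bott, spin, emb_v, -Complex.ofReal_div, h3] <;>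
      field_simp <;> ring_nf <;> simp <;> ring

variable {p : ℕ} {L : Type} [Fintype L] [DecidableEq L]

theorem matA_star : star (matA p L) = matA p L := by
  ext i j
  rcases i with i | i <;> rcases j with j | j <;> simp [matA, Matrix.diagonal_apply, eq_comm]

theorem matA_sq : matA p L * matA p L = matA p L := by
  rw [matA, Matrix.diagonal_mul_diagonal]
  refine congrArg Matrix.diagonal (funext fun i => ?_)
  rcases i with i | i <;> simp

theorem matA_tr : ∑ i, matA p L i i = p := by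
  simp [matA, Fintype.sum_sum_type]

theorem matB_star (ω : L → Fin 3 → ℝ) : star (matB p ω) = matB p ω := by
  ext i j
  rcases i with i | ⟨a, s⟩ <;> rcases j with j | ⟨b, s'⟩ <;> simp [matB]
  by_cases h : a = b
  · subst h
    fin_cases s <;> fin_cases s' <;> simp [bott, map_ofNat, sub_eq_add_neg]
  · simp [h, Ne.symm h]

theorem matB_sq (ω : L → Fin 3 → ℝ) : matB p ω - matB p ω * matB p ω =
    Matrix.diagonal (Sum.elim (fun _ => 0) fun a => (((1 - ∑ c, ω a.1 c ^ 2) / 4 : ℝ) : ℂ)) := by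
  ext i j
  rcases i with i | ⟨a, s⟩ <;> rcases j with j | ⟨b, s'⟩
  · simp [matB, Matrix.mul_apply, Fintype.sum_sum_type, Matrix.diagonal_apply]
  · simp [matB, Matrix.mul_apply, Fintype.sum_sum_type]
  · simp [matB, Matrix.mul_apply, Fintype.sum_sum_type]
  · by_cases h : a = b
    · subst h
      simp only [matB, Matrix.sub_apply, Matrix.mul_apply, Fintype.sum_sum_type, zero_mul,
        Finset.sum_const_zero, zero_add, Fintype.sum_prod_type, if_true, ite_mul, mul_ite, mul_zero,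
        Finset.sum_ite_irrel, Finset.sum_ite_eq', Finset.sum_ite_eq, Finset.mem_univ,
        Matrix.diagonal_apply, Sum.inr.injEq, Prod.mk.injEq, true_and, Sum.elim_inr]
      fin_cases s <;> fin_cases s' <;> simp [bott, Fin.sum_univ_two, Fin.sum_univ_three] <;>
        ring_nf <;> simp <;> ring
    · simp [matB, Matrix.mul_apply, Fintype.sum_sum_type, Fintype.sum_prod_type, h]

theorem matB_tr (ω : L → Fin 3 → ℝ) : ∑ i, matB p ω i i = Fintype.card L := by
  simp only [Fintype.sum_sum_type, matB, Finset.sum_const_zero, zero_add, Fintype.sum_prod_type,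
    if_true, Fin.sum_univ_two]
  have : ∀ a : L, bott (ω a) 0 0 + bott (ω a) 1 1 = 1 := fun a => by
    simp [bott]
    ring
  simp [this]

theorem matB_cont (i j : Fin p ⊕ L × Fin 2) :
    Continuous fun ω : L → Fin 3 → ℝ => matB p ω i j := by
  rcases i with i | ⟨a, s⟩ <;> rcases j with j | ⟨b, s'⟩ <;> simp only [matB] <;>
    try exact continuous_const
  split_ifs
  · fin_cases s <;> fin_cases s' <;> simp [bott] <;> fun_prop
  · exact continuous_const

end Vale.Agent.P093
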