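import Vale.Agent.P093.Pat

/-! P093 Off (TASK). The offset set is locally constant; towers. Helper names start with `off_`.
`offs_lc`: `c x = ncard (offs (w n) x.1 ∩ Ico 0 (q n))` is invariant under `h ^ l` (`offs_zpow`, `offs_per`; one step `l = 1`, or count with the periodic indicator as in `st_shift` applied to the pattern `i ↦ if i ∈ offs then none else some ()`). Near `x`, `offs x' ⊆ offs x` (finitely many closed conditions, `isClosed_offs`, `offs_per`). Take `x₀` with minimal `c`; the set where `c` is minimal is open and invariant... simpler: for any `x`, `x₀` the orbit of `x₀` enters the neighbourhood of `x` (`Pat.min`), so `c x₀ ≤ c x`; hence `c` is constant, and an inclusion of finite sets of equal size is an equality.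
`exists_marker`: the subgroup of all `l` with `∀ k, k - l ∈ A ↔ k ∈ A`, `A = offs (w n) x₀.1`, contains `q n ≠ 0`; `Int.subgroup_cyclic`, `Q = natAbs` of a generator. `cov`: the orbit of `x` meets the nonempty open set.
`exists_far`: otherwise for all `n ≥ n₀` the set `offs (w n) x₀.1` is invariant under `R = Q₀ !` (`Nat.dvd_factorial`). Put `x' i = if ∃ n ≥ n₀, ∃ k ∈ offs (w n) x₀.1, ∃ c, w n (i + k) = some c then x₀.1 i else x₀.1 0`. Then `x' ∈ blockSet w` (`nest_le` for the levels below `n₀`), `x' (i + R) = x' i`, the orbit of `x'` is finite and dense, so the space is finite. -/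

open Filter Topology Set

noncomputable section

namespace Vale.Agent.P093

variable {K : Type} [TopologicalSpace K] [T2Space K] {w : ℕ → ℤ → Option K} {q : ℕ → ℕ}
  {h : blockSet w ≃ₜ blockSet w}

open Classical in
/-- The pattern whose holes are the members of `A`. -/
def off_P (A : Set ℤ) (i : ℤ) : Option Unit := if i ∈ A then none else some ()

theorem off_none {A : Set ℤ} {i : ℤ} : off_P A i = none ↔ i ∈ A := by simp [off_P]

/-- Periodic sets. -/
def off_Per (r : ℕ) (A : Set ℤ) : Prop := ∀ k ∈ A, ∀ m : ℤ, k + r * m ∈ A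

section

variable {r : ℕ} {A B : Set ℤ}

theorem off_sub (hr : 0 < r) (hA : off_Per r A) (hB : off_Per r B)
    (h : ∀ i : ℕ, i < r → (i : ℤ) ∈ A → (i : ℤ) ∈ B) : A ⊆ B := by
  intro k hk
  have r0 : (0 : ℤ) < r := Int.natCast_pos.2 hr
  obtain ⟨i, hi⟩ := Int.eq_ofNat_of_zero_le (Int.emod_nonneg k r0.ne')
  have h1 := Int.emod_lt_of_pos k r0
  have h2 := Int.emod_add_mul_ediv k r
  have h3 := hA k hk (-(k / r))
  rw [show k + r * -(k / r) = i by linarith] at h3
  have h4 := hB _ (h i (by omega) h3) (k / r)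
  rwa [← hi, h2] at h4

theorem off_le (h : A ⊆ B) : st (off_P A) 0 r ≤ st (off_P B) 0 r :=
  Finset.card_le_card (Finset.monotone_filter_right _ fun _ _ hi => off_none.2 (h (off_none.1 hi)))

theorem off_eq (hr : 0 < r) (hA : off_Per r A) (hB : off_Per r B) (h : A ⊆ B)
    (h' : st (off_P B) 0 r ≤ st (off_P A) 0 r) : A = B := by
  have e := Finset.eq_of_subset_of_card_le
    (Finset.monotone_filter_right _ fun _ _ hi => off_none.2 (h (off_none.1 hi))) h'
  refine h.antisymm (off_sub hr hB hA fun i hi hb => ?_)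
  have k := (Finset.ext_iff.1 e i).2
    (Finset.mem_filter.2 ⟨Finset.mem_range.2 hi, off_none.2 (by rwa [zero_add])⟩)
  have k' := off_none.1 (Finset.mem_filter.1 k).2
  rwa [zero_add] at k'

theorem off_shift (hA : off_Per r A) {l : ℤ} (h : ∀ k, k ∈ B ↔ k - l ∈ A) :
    st (off_P B) 0 r = st (off_P A) 0 r := by
  have hp : ∀ i, off_P A (i + r) = off_P A i := fun i => by
    have e : i + r ∈ A ↔ i ∈ A := ⟨fun k => by simpa using hA _ k (-1), fun k => by
      simpa using hA _ k 1⟩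
    rw [off_P, off_P, propext e]
  rw [← st_shift hp (-l)]
  refine congrArg Finset.card (Finset.filter_congr fun i _ => ?_)
  rw [off_none, off_none, h, zero_add, neg_add_eq_sub]

/-- The translations that preserve `A`. -/
def off_G (A : Set ℤ) : AddSubgroup ℤ where
  carrier := {l | ∀ k, k - l ∈ A ↔ k ∈ A}
  zero_mem' := fun k => by rw [sub_zero]
  add_mem' := fun {a b} ha hb k => by rw [← sub_sub, hb, ha]
  neg_mem' := fun {a} ha k => by rw [← ha, sub_neg_eq_add, add_sub_cancel_right]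

end

theorem off_per (H : Pat w q h) (n : ℕ) (x : ℤ → K) : off_Per (q n) (offs (w n) x) :=
  fun _ hk m => offs_per (H.per n) hk m

theorem off_near (H : Pat w q h) (n : ℕ) (x : blockSet w) :
    ∀ᶠ y in 𝓝 x, offs (w n) y.1 ⊆ offs (w n) x.1 := by
  have h1 : ∀ i ∈ Finset.range (q n), ∀ᶠ y : blockSet w in 𝓝 x,
      (i : ℤ) ∈ offs (w n) y.1 → (i : ℤ) ∈ offs (w n) x.1 := fun i _ => by
    by_cases k : (i : ℤ) ∈ offs (w n) x.1
    · exact Eventually.of_forall fun _ _ => k
    · filter_upwards [((isClosed_offs (w n) i).preimage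
        continuous_subtype_val).isOpen_compl.mem_nhds (x := x) k] with y hy hi
      exact absurd hi hy
  filter_upwards [(eventually_all_finset _).2 h1] with y hy
  exact off_sub (H.pos n) (off_per H n _) (off_per H n _) fun i hi => hy i (Finset.mem_range.2 hi)

theorem off_iff (H : Pat w q h) (n : ℕ) (x : blockSet w) (l : ℤ) :
    offs (w n) ((h ^ l) x).1 = offs (w n) x.1 ↔ l ∈ off_G (offs (w n) x.1) := by
  rw [Set.ext_iff]
  exact forall_congr' fun k => by rw [H.offs_zpow]

theorem Pat.offs_lc (H : Pat w q h) (n : ℕ) :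
    IsLocallyConstant fun x : blockSet w => offs (w n) x.1 := by
  have key : ∀ x x₀ : blockSet w,
      st (off_P (offs (w n) x₀.1)) 0 (q n) ≤ st (off_P (offs (w n) x.1)) 0 (q n) := fun x x₀ => by
    obtain ⟨_, ⟨l, rfl⟩, hl⟩ := (H.min x₀).inter_nhds_nonempty (off_near H n x)
    rw [← off_shift (off_per H n x₀.1) (H.offs_zpow n l x₀)]
    exact off_le hl
  refine (IsLocallyConstant.iff_eventually_eq _).2 fun x => ?_
  filter_upwards [off_near H n x] with y hy
  exact off_eq (H.pos n) (off_per H n _) (off_per H n _) hy (key y x)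

theorem Pat.exists_marker (H : Pat w q h) (n : ℕ) (x₀ : blockSet w) :
    ∃ Q : ℕ, 0 < Q ∧ Marker h Q {x | offs (w n) x.1 = offs (w n) x₀.1} := by
  obtain ⟨a, ha⟩ := Int.subgroup_cyclic (off_G (offs (w n) x₀.1))
  have hG : ∀ l, l ∈ off_G (offs (w n) x₀.1) ↔ (a.natAbs : ℤ) ∣ l := fun l => by
    rw [ha, AddSubgroup.mem_closure_singleton, Int.natAbs_dvd]
    exact ⟨fun ⟨m, hm⟩ => ⟨m, by rw [← hm, smul_eq_mul, mul_comm]⟩,
      fun ⟨m, hm⟩ => ⟨m, by rw [hm, smul_eq_mul, mul_comm]⟩⟩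
  have hq : (q n : ℤ) ∈ off_G (offs (w n) x₀.1) := fun k =>
    ⟨fun hk => by simpa using off_per H n _ _ hk 1, fun hk => by
      simpa [sub_eq_add_neg] using off_per H n _ _ hk (-1)⟩
  have hc := (H.offs_lc n).isClopen_fiber (offs (w n) x₀.1)
  refine ⟨a.natAbs, Nat.pos_of_dvd_of_pos (Int.natCast_dvd_natCast.1 ((hG _).1 hq)) (H.pos n),
    hc, fun y hy l => ?_, fun x => ?_⟩
  · have hy' : offs (w n) y.1 = offs (w n) x₀.1 := hy
    rw [← hG, ← hy', ← off_iff H]
    rfl
  · obtain ⟨_, ⟨l, rfl⟩, hl⟩ := (H.min x).exists_mem_open hc.isOpen ⟨x₀, rfl⟩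
    exact ⟨l, hl⟩

theorem Pat.exists_far (H : Pat w q h) [Infinite (blockSet w)] (x₀ : blockSet w) (n₀ Q₀ : ℕ) :
    ∃ n, n₀ ≤ n ∧ ∀ l : ℕ, 0 < l → l < Q₀ →
      offs (w n) ((h ^ (l : ℤ)) x₀).1 ≠ offs (w n) x₀.1 := by
  classical
  by_contra hn
  push Not at hn
  have hR : ∀ n, n₀ ≤ n → ((Q₀.factorial : ℕ) : ℤ) ∈ off_G (offs (w n) x₀.1) := fun n h0 => by
    obtain ⟨l, l0, l1, hl⟩ := hn n h0
    obtain ⟨m, hm⟩ := Nat.dvd_factorial l0 l1.le
    have k := (off_G _).nsmul_mem ((off_iff H n x₀ l).1 hl) m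
    rwa [nsmul_eq_mul, ← Nat.cast_mul, mul_comm, ← hm] at k
  set R : ℕ := Q₀.factorial
  have R0 : (0 : ℤ) < R := Int.natCast_pos.2 (Nat.factorial_pos _)
  let S : ℤ → Prop := fun i => ∃ n, n₀ ≤ n ∧ ∃ k ∈ offs (w n) x₀.1, ∃ c, w n (i + k) = some c
  let x : ℤ → K := fun i => if S i then x₀.1 i else x₀.1 0
  have hx : x ∈ blockSet w := fun n => by
    obtain ⟨k, hk⟩ := x₀.2 (max n n₀)
    refine ⟨k, fun i c hc => ?_⟩
    have hc' := H.nest_le (le_max_left n n₀) hc
    exact (if_pos ⟨_, le_max_right _ _, k, hk, c, hc'⟩).trans (hk i c hc')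
  have hp : Function.Periodic x (R : ℤ) := fun i => by
    by_cases k : S i
    · obtain ⟨n, h0, k, hk, c, hc⟩ := k
      have hk' := (hR n h0 k).2 hk
      have hc' : w n (i + R + (k - R)) = some c := by rwa [add_add_sub_cancel]
      exact ((if_pos ⟨n, h0, _, hk', c, hc'⟩).trans (hk' _ c hc')).trans
        ((if_pos ⟨n, h0, k, hk, c, hc⟩).trans (hk i c hc)).symm
    · refine (if_neg ?_).trans (if_neg k).symm
      rintro ⟨n, h0, j, hj, c, hc⟩
      exact k ⟨n, h0, j + R, (hR n h0 _).1 (by rwa [add_sub_cancel_right]), c, by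
        rwa [add_comm j, ← add_assoc]⟩
  have hf : (range fun l : ℤ => (h ^ l) ⟨x, hx⟩).Finite := by
    refine ((finite_Ico (0 : ℤ) R).image fun l : ℤ => (h ^ l) ⟨x, hx⟩).subset ?_
    rintro _ ⟨l, rfl⟩
    refine ⟨l % R, ⟨Int.emod_nonneg _ R0.ne', Int.emod_lt_of_pos _ R0⟩,
      Subtype.ext (funext fun i => ?_)⟩
    rw [H.zpow_apply, H.zpow_apply]
    have k := hp.int_mul (l / R) (i + l % R)
    rw [Int.cast_id, add_assoc, mul_comm, Int.emod_add_mul_ediv] at k
    exact k.symm
  have e := (H.min ⟨x, hx⟩).closure_eq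
  rw [hf.isClosed.closure_eq] at e
  exact infinite_univ (e ▸ hf)

end Vale.Agent.P093
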