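import Vale.Agent.P093.Win
import Vale.Agent.P093.Off

/-! P093 Free (TASK). Towers with almost all holes free. Helper names start with `fre_`.
Take `n₀` with `st / q ≤ rho + δ` (`exists_lt_of_ciInf_lt`), any `x₁`, `n ≥ n₀` from `exists_far`, `Q`, `Y` from `exists_marker` (`Q₀ ≤ Q` by `Marker.ret` with `l = Q`), `A = offs (w n) x₁.1` (invariant under `± Q`: `ret`, `offs_zpow`), `S = (range Q).filter fun s => ∀ a ∈ A, w n (s + a) = none`.
For `M`: `exists_win` with `N = Q M + Q`, `Φ z i = if i ∈ F then e (z i) else x₀ i` is continuous in `z`, so `offs (w n) (Φ z)` is constant (`IsLocallyConstant.apply_eq_of_preconnectedSpace`). There is `0 ≤ l < Q` with `(h ^ l) (Φ 0) ∈ Y` (`cov`, `ret`, `Int.emod`); shift: `Fr = (F.image (· - l)).filter (0 ≤ · < Q M)`, `card F - Q ≤ card Fr`, new base point `i ↦ Φ 0 (i + l)`, and use `Φ` at `z' i = if i - l ∈ Fr then z (i - l) else 0`.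
Every `i ∈ Fr` is `Q j + s` with `s ∈ S` (otherwise `e` is constant: `e 0 ≠ e 1`), so the number of non-free pairs is `M card S - card Fr`; `M card S ≤ st (w n₀) a (Q M)` for `a ∈ A` (`nest_le`), `st_upper`. The bound `rho Q ≤ card S` from `rho (Q M + Q) - Q ≤ card Fr ≤ M card S` for all `M`. -/

open Filter Topology Set

set_option linter.unusedSectionVars false

noncomputable section

namespace Vale.Agent.P093

variable {K : Type} [TopologicalSpace K] [T2Space K] [CompactSpace K] {w : ℕ → ℤ → Option K}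
  {q : ℕ → ℕ} {h : blockSet w ≃ₜ blockSet w} {k : ℕ}

theorem fre_win (H : Pat w q h) {e : (Fin k → unitInterval) → K} (he : Continuous e) {n Q : ℕ}
    (hQ : 0 < Q) {A : Set ℤ} (hY : Marker h Q {x | offs (w n) x.1 = A}) (M : ℕ) :
    ∃ (x₀ : ℤ → K) (Fr : Finset ℤ), (∀ z : ℤ → Fin k → unitInterval, ∃ x : blockSet w,
      offs (w n) x.1 = A ∧ ∀ i, x.1 i = if i ∈ Fr then e (z i) else x₀ i) ∧
      (∀ i ∈ Fr, 0 ≤ i ∧ i < Q * M) ∧ rho w q * (Q * M + Q) - Q ≤ Fr.card := by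
  obtain ⟨x₀, F, h1, h2, h3⟩ := H.exists_win (e 0) (Q * M + Q)
  let Φ : (ℤ → Fin k → unitInterval) → blockSet w := fun z =>
    ⟨fun i => if i ∈ F then e (z i) else x₀ i, h3 _ fun i hi => if_neg hi⟩
  have hΦ : Continuous Φ := by
    refine Continuous.subtype_mk (continuous_pi fun i => ?_) _
    by_cases hi : i ∈ F
    · simp only [if_pos hi]
      exact he.comp (continuous_apply i)
    · simp only [if_neg hi]
      exact continuous_const
  have hc : ∀ z, offs (w n) (Φ z).1 = offs (w n) (Φ 0).1 := fun z =>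
    ((H.offs_lc n).comp_continuous hΦ).apply_eq_of_preconnectedSpace z 0
  obtain ⟨l₀, hl₀⟩ := hY.cov (Φ 0)
  have hQ' : (0 : ℤ) < Q := by exact_mod_cast hQ
  obtain ⟨l, l0, l1, hl⟩ : ∃ l : ℤ, 0 ≤ l ∧ l < Q ∧ offs (w n) ((h ^ l) (Φ 0)).1 = A := by
    refine ⟨l₀ % Q, Int.emod_nonneg _ hQ'.ne', Int.emod_lt_of_pos _ hQ', ?_⟩
    have h4 := (hY.ret _ hl₀ (l₀ % Q - l₀)).2 Int.dvd_emod_sub_self
    rw [← Homeomorph.mul_apply, ← zpow_add, sub_add_cancel] at h4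
    exact h4
  refine ⟨fun i => (Φ 0).1 (i + l), (Finset.Ico (0 : ℤ) (Q * M)).filter fun i => i + l ∈ F,
    fun z => ?_, fun i hi => Finset.mem_Ico.1 (Finset.mem_filter.1 hi).1, ?_⟩
  · refine ⟨(h ^ l) (Φ fun i => if i - l ∈ Finset.Ico (0 : ℤ) (Q * M) then z (i - l) else 0),
      ?_, fun i => ?_⟩
    · rw [← hl]
      ext a
      rw [H.offs_zpow, H.offs_zpow, hc]
    · rw [H.zpow_apply]
      simp only [Φ, add_sub_cancel_right, Finset.mem_filter, Pi.zero_apply]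
      by_cases a1 : i + l ∈ F <;> by_cases a2 : i ∈ Finset.Ico (0 : ℤ) (Q * M) <;> simp only [a1, a2,
        if_true, if_false, and_true, and_false]
  · have h4 : F ⊆ (((Finset.Ico (0 : ℤ) (Q * M)).filter fun i => i + l ∈ F).image (· + l) ∪
        Finset.Ico 0 l) ∪ Finset.Ico (Q * M + l) (Q * M + Q) := by
      intro i hi
      have a1 := h1 i hi
      push_cast at a1
      simp only [Finset.mem_union, Finset.mem_image, Finset.mem_filter, Finset.mem_Ico]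
      by_cases a2 : i < l
      · exact Or.inl (Or.inr ⟨a1.1, a2⟩)
      · by_cases a3 : i < Q * M + l
        · exact Or.inl (Or.inl ⟨i - l, ⟨⟨by omega, by omega⟩, by rwa [sub_add_cancel]⟩,
            sub_add_cancel _ _⟩)
        · exact Or.inr ⟨by omega, a1.2⟩
    have h5 := (Finset.card_le_card h4).trans ((Finset.card_union_le _ _).trans (add_le_add_left
      ((Finset.card_union_le _ _).trans (add_le_add_left Finset.card_image_le _)) _))
    rw [Int.card_Ico, Int.card_Ico] at h5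
    have h6 : F.card ≤
        ((Finset.Ico (0 : ℤ) (Q * M)).filter fun i => i + l ∈ F).card + Q := by omega
    have h7 : (F.card : ℝ) ≤
        ((Finset.Ico (0 : ℤ) (Q * M)).filter fun i => i + l ∈ F).card + Q := by exact_mod_cast h6
    push_cast at h2
    linarith

theorem fre_hole (hk : 0 < k) {e : (Fin k → unitInterval) → K} (he' : Function.Injective e) {n : ℕ}
    {A : Set ℤ} {x₀ : ℤ → K} {Fr : Finset ℤ} (h1 : ∀ z : ℤ → Fin k → unitInterval,
      ∃ x : blockSet w, offs (w n) x.1 = A ∧ ∀ i, x.1 i = if i ∈ Fr then e (z i) else x₀ i)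
    {i : ℤ} (hi : i ∈ Fr) {a : ℤ} (ha : a ∈ A) : w n (i + a) = none := by
  by_contra hne
  obtain ⟨c, hc⟩ := Option.ne_none_iff_exists'.1 hne
  have h2 : ∀ v, e v = c := fun v => by
    obtain ⟨x, a1, a2⟩ := h1 fun _ => v
    have a3 := (a1 ▸ ha : a ∈ offs (w n) x.1) i c hc
    rwa [a2, if_pos hi] at a3
  exact zero_ne_one (congrFun (he' ((h2 0).trans (h2 1).symm)) ⟨0, hk⟩)

theorem fre_cnt {Q M : ℕ} (hQ : 0 < Q) {S : Finset ℕ} {Fr : Finset ℤ}
    (h1 : ∀ i ∈ Fr, 0 ≤ i ∧ i < Q * M) (h2 : ∀ (j s : ℕ), s < Q → (Q : ℤ) * j + s ∈ Fr → s ∈ S) :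
    ((Finset.univ ×ˢ S).filter fun a : Fin M × ℕ =>
      (Q : ℤ) * (a.1 : ℕ) + a.2 ∉ Fr).card + Fr.card ≤ M * S.card := by
  have h3 := Finset.card_filter_add_card_filter_not (s := (Finset.univ : Finset (Fin M)) ×ˢ S)
    fun a : Fin M × ℕ => (Q : ℤ) * (a.1 : ℕ) + a.2 ∈ Fr
  rw [Finset.card_product, Finset.card_univ, Fintype.card_fin] at h3
  have h4 : Fr.card ≤ ((Finset.univ ×ˢ S).filter fun a : Fin M × ℕ =>
      (Q : ℤ) * (a.1 : ℕ) + a.2 ∈ Fr).card := by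
    refine Finset.card_le_card_of_surjOn (fun a => (Q : ℤ) * (a.1 : ℕ) + a.2) fun i hi => ?_
    obtain ⟨a1, a2⟩ := h1 i hi
    obtain ⟨i, rfl⟩ := Int.eq_ofNat_of_zero_le a1
    have a3 : i < Q * M := by exact_mod_cast a2
    have a4 : (Q : ℤ) * (i / Q : ℕ) + (i % Q : ℕ) = i := by exact_mod_cast Nat.div_add_mod i Q
    refine ⟨(⟨i / Q, Nat.div_lt_of_lt_mul a3⟩, i % Q), Finset.mem_coe.2 (Finset.mem_filter.2
      ⟨Finset.mem_product.2 ⟨Finset.mem_univ _, h2 (i / Q) _ (Nat.mod_lt _ hQ) ?_⟩, ?_⟩), a4⟩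
    · rw [a4]
      exact hi
    · exact a4.symm ▸ hi
  omega

theorem fre_st {v : ℤ → Option K} {Q : ℕ} {S : Finset ℕ} {A : Set ℤ}
    (hA : ∀ a ∈ A, ∀ m : ℤ, a + Q * m ∈ A) (hS : ∀ s ∈ S, s < Q ∧ ∀ a ∈ A, v (a + s) = none)
    {a : ℤ} (ha : a ∈ A) (M : ℕ) : M * S.card ≤ st v a (Q * M) := by
  induction M with
  | zero => simp
  | succ M ih =>
    rw [Nat.mul_succ, st_add, Nat.succ_mul]
    refine add_le_add ih (Finset.card_le_card fun s hs => ?_)
    refine Finset.mem_filter.2 ⟨Finset.mem_range.2 (hS s hs).1, (hS s hs).2 _ ?_⟩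
    push_cast
    exact hA a ha M

theorem Pat.exists_free (H : Pat w q h) [Infinite (blockSet w)] (hk : 0 < k)
    {e : (Fin k → unitInterval) → K} (he : Continuous e) (he' : Function.Injective e) {δ : ℝ}
    (hδ : 0 < δ) (Q₀ : ℕ) : ∃ (Q : ℕ) (Y : Set (blockSet w)) (S : Finset ℕ), Q₀ ≤ Q ∧ 0 < Q ∧
      Marker h Q Y ∧ (∀ s ∈ S, s < Q) ∧ rho w q * Q ≤ S.card ∧ Free e Q Y S δ := by
  classical
  obtain ⟨n₀, hn₀⟩ := exists_lt_of_ciInf_lt (show rho w q < rho w q + δ by linarith)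
  obtain ⟨x₁⟩ : Nonempty (blockSet w) := inferInstance
  obtain ⟨n, hn, hfar⟩ := H.exists_far x₁ n₀ Q₀
  obtain ⟨Q, hQ, hY⟩ := H.exists_marker n x₁
  have hA : ∀ a ∈ offs (w n) x₁.1, ∀ m : ℤ, a + Q * m ∈ offs (w n) x₁.1 := fun a ha m => by
    have h1 : offs (w n) ((h ^ ((Q : ℤ) * m)) x₁).1 = offs (w n) x₁.1 :=
      (hY.ret x₁ rfl _).2 (dvd_mul_right _ _)
    rw [← h1, H.offs_zpow, add_sub_cancel_right]
    exact ha
  have hQ₀ : Q₀ ≤ Q := not_lt.1 fun hlt => hfar Q hQ hlt ((hY.ret x₁ rfl _).2 dvd_rfl)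
  obtain ⟨a₀, ha₀⟩ : (offs (w n) x₁.1).Nonempty := x₁.2 n
  generalize offs (w n) x₁.1 = A at hA hY ha₀
  obtain ⟨S, hS⟩ : ∃ S : Finset ℕ, ∀ s, s ∈ S ↔ s < Q ∧ ∀ a ∈ A, w n (a + s) = none :=
    ⟨(Finset.range Q).filter fun s => ∀ a ∈ A, w n (a + s) = none, fun s => by
      rw [Finset.mem_filter, Finset.mem_range]⟩
  have key : ∀ M : ℕ, ∃ (x₀ : ℤ → K) (Fr : Finset ℤ), (∀ z : ℤ → Fin k → unitInterval,
      ∃ x : blockSet w, offs (w n) x.1 = A ∧ ∀ i, x.1 i = if i ∈ Fr then e (z i) else x₀ i) ∧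
      (((Finset.univ ×ˢ S).filter fun a : Fin M × ℕ => (Q : ℤ) * (a.1 : ℕ) + a.2 ∉ Fr).card : ℝ) +
        (rho w q * (Q * M + Q) - Q) ≤ M * S.card := fun M => by
    obtain ⟨x₀, Fr, h1, h2, h3⟩ := fre_win H he hQ hY M
    refine ⟨x₀, Fr, h1, (add_le_add_right h3 _).trans ?_⟩
    exact_mod_cast fre_cnt hQ h2 fun j s hs hm => (hS s).2 ⟨hs, fun a ha => by
      rw [← fre_hole hk he' h1 hm (hA a ha (-j))]
      congr 1
      ring⟩
  have hρ := rho_nonneg w q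
  have hQ' : (0 : ℝ) < Q := by exact_mod_cast hQ
  refine ⟨Q, _, S, hQ₀, hQ, hY, fun s hs => ((hS s).1 hs).1, ?_, q n₀ + Q, fun M => ?_⟩
  · by_contra hlt
    push Not at hlt
    obtain ⟨M, hM⟩ := exists_nat_gt (Q / (rho w q * Q - S.card))
    obtain ⟨_, Fr, -, h2⟩ := key M
    rw [div_lt_iff₀ (by linarith)] at hM
    have h3 : (0 : ℝ) ≤ (((Finset.univ ×ˢ S).filter fun a : Fin M × ℕ =>
      (Q : ℤ) * (a.1 : ℕ) + a.2 ∉ Fr).card : ℝ) := Nat.cast_nonneg _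
    nlinarith [mul_nonneg hρ hQ'.le]
  · obtain ⟨x₀, Fr, h1, h2⟩ := key M
    refine ⟨x₀, Fr, h1, ?_⟩
    have h3 : ((M * S.card : ℕ) : ℝ) ≤ st (w n₀) a₀ (Q * M) := Nat.cast_le.2 (fre_st hA
      (fun s hs => ⟨((hS s).1 hs).1, fun a ha => by
        by_contra hne
        obtain ⟨c, hc⟩ := Option.ne_none_iff_exists'.1 hne
        have h4 := ((hS s).1 hs).2 a ha
        rw [H.nest_le hn hc] at h4
        exact Option.some_ne_none _ h4⟩) ha₀ M)
    have h4 := st_upper (H.per n₀) (H.pos n₀) a₀ (Q * M)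
    have h5 := mul_le_mul_of_nonneg_right hn₀.le (show (0 : ℝ) ≤ Q * M by positivity)
    push_cast at h3 h4
    nlinarith [mul_nonneg hρ hQ'.le]

end Vale.Agent.P093
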