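import Vale.Agent.P093.Stmt

/-! P093: the C*-algebra generated by a set of operators and its radius of comparison. -/

open scoped ENNReal

noncomputable section

namespace Vale.Agent.P093

variable {H : Type} [NormedAddCommGroup H] [InnerProductSpace ℂ H] [CompleteSpace H]

/-- The C*-algebra generated by a set of operators. -/
def genAlg (S : Set (H →L[ℂ] H)) : StarSubalgebra ℂ (H →L[ℂ] H) :=
  (StarAlgebra.adjoin ℂ S).topologicalClosure

instance genAlg_closed (S : Set (H →L[ℂ] H)) : IsClosed (genAlg S : Set (H →L[ℂ] H)) :=
  StarSubalgebra.isClosed_topologicalClosure _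

/-- The radius of comparison of the generated algebra. -/
def rcGen (S : Set (H →L[ℂ] H)) : ℝ≥0∞ := rc (genAlg S)

end Vale.Agent.P093
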