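import Vale.Agent.P093.Pat
import Vale.Agent.P093.Emb

/-! P093 Grp (TASK). Grouping of the free coordinates. Helper names start with `grp_`.
`f : K → Fin k → ℝ` continuous with `f (e y) c = y c` (`Continuous.isClosedEmbedding`, `ContinuousMap.exists_extension`). `ι : Fin G × Fin (2 t + 1) ↪ S × Fin k` (`Function.Embedding.nonempty_of_card_le`). `j`, `ρ₀` from `exists_emb t`; `ρ (γ, i) x = ρ₀ (fun a => f (x.1 (ι (γ, a)).1) (ι (γ, a)).2) i`.
For `M`: `κ (j, γ, a) = (Q j + (ι (γ, a)).1, (ι (γ, a)).2) : ℤ × Fin k` is injective (`s < Q`); `z ω i c = Function.extend κ (fun b => j (fun i => ω (b.1, b.2.1, i)) b.2.2) 0 (i, c)`, continuous in `ω` (`Function.Injective.extend_apply`, `Function.extend_apply'`); `φ ω = ⟨fun i => if i ∈ Fr then e (z ω i) else x₀ i, _⟩`.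
`Bad` = all `(j, γ, i)` with some `a` such that `Q j + (ι (γ, a)).1 ∉ Fr`; it is covered by (non-free pairs) × `Fin k` × `Fin t` (the pair and the coordinate determine `γ`), so `card Bad ≤ t k (δ Q M + C₀)`. Take `M` large (`exists_nat_gt`). -/

open Filter Topology Set

noncomputable section

namespace Vale.Agent.P093

variable {K : Type} [MetricSpace K] [CompactSpace K] {w : ℕ → ℤ → Option K}
  {q : ℕ → ℕ} {h : blockSet w ≃ₜ blockSet w} {k : ℕ}

omit [CompactSpace K] in
theorem grp_ext {e : (Fin k → unitInterval) → K} (he : Continuous e)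
    (he' : Function.Injective e) :
    ∃ f : K → Fin k → ℝ, Continuous f ∧ ∀ y c, f (e y) c = y c := by
  obtain ⟨g, hg⟩ := ContinuousMap.exists_extension' (he.isClosedEmbedding he')
    (⟨fun y c => (y c : ℝ), by fun_prop⟩ : C(Fin k → unitInterval, Fin k → ℝ))
  exact ⟨g, g.continuous, fun y c => congrFun (congrFun hg y) c⟩

theorem grp_div {Q m m' s s' : ℕ} (hs : s < Q) (hs' : s' < Q)
    (h : (Q : ℤ) * m + s = Q * m' + s') : m = m' ∧ s = s' := by
  have h1 : Q * m + s = Q * m' + s' := by exact_mod_cast h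
  have h2 := congrArg (· % Q) h1
  simp only [Nat.mul_add_mod, Nat.mod_eq_of_lt hs, Nat.mod_eq_of_lt hs'] at h2
  rw [h2] at h1
  exact ⟨Nat.eq_of_mul_eq_mul_left (by omega) (Nat.add_right_cancel h1), h2⟩

theorem grp_cont {A B Ω Z : Type} [TopologicalSpace Ω] [TopologicalSpace Z] {κ : A → B}
    (hκ : Function.Injective κ) {F : Ω → A → Z} (hF : ∀ a, Continuous fun ω => F ω a) (g : B → Z)
    (b : B) : Continuous fun ω => Function.extend κ (F ω) g b := by
  by_cases hb : ∃ a, κ a = b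
  · obtain ⟨a, rfl⟩ := hb
    simp only [hκ.extend_apply]
    exact hF a
  · simp only [Function.extend_apply' _ _ _ hb]
    exact continuous_const

theorem Pat.mark (H : Pat w q h) {e : (Fin k → unitInterval) → K} (he : Continuous e)
    (he' : Function.Injective e) {δ : ℝ} {Q : ℕ} {Y : Set (blockSet w)} {S : Finset ℕ}
    (hY : Marker h Q Y) (hS : ∀ s ∈ S, s < Q) (hF : Free e Q Y S δ) {t G p : ℕ}
    (hG : G * (2 * t + 1) ≤ S.card * k) (hp : 4 * t * k * δ * Q < p) :
    ∃ ρ : Fin G × Fin t → blockSet w → Fin 3 → ℝ, Mark h Q p Y ρ := by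
  classical
  obtain ⟨f, hf, hfe⟩ := grp_ext he he'
  obtain ⟨ι⟩ : Nonempty (Fin G × Fin (2 * t + 1) ↪ S × Fin k) :=
    Function.Embedding.nonempty_of_card_le (by simpa using hG)
  obtain ⟨j, r, hj, hr, hr1, hrj⟩ := exists_emb t
  obtain ⟨C₀, hC⟩ := hF
  refine ⟨fun γ x => r (fun a => f (x.1 ((ι (γ.1, a)).1 : ℕ)) (ι (γ.1, a)).2) γ.2, hY,
    fun γ => ?_, fun γ x => hr1 _ _, fun C => ?_⟩
  · refine (continuous_apply γ.2).comp (hr.comp (continuous_pi fun a => ?_))
    exact (continuous_apply _).comp (hf.comp ((continuous_apply _).comp continuous_subtype_val))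
  obtain ⟨M, hM⟩ := exists_nat_gt ((4 * t * k * C₀ + C) / (p - 4 * t * k * δ * Q))
  rw [div_lt_iff₀ (sub_pos.2 hp)] at hM
  obtain ⟨x₀, Fr, hz, hcard⟩ := hC M
  choose φ hφY hφ using hz
  let κ : Fin M × Fin G × Fin (2 * t + 1) → ℤ × Fin k := fun b =>
    ((Q : ℤ) * (b.1 : ℕ) + ((ι b.2).1 : ℕ), (ι b.2).2)
  have hκ : Function.Injective κ := by
    intro b b' hb
    have h1 := grp_div (hS _ (ι b.2).1.2) (hS _ (ι b'.2).1.2) (congrArg Prod.fst hb)
    have h2 : (κ b).2 = (κ b').2 := congrArg Prod.snd hb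
    exact Prod.ext (Fin.ext h1.1) (ι.injective (Prod.ext (Subtype.ext h1.2) h2))
  let z : (Fin M × Fin G × Fin t → S2) → ℤ → Fin k → unitInterval := fun ω i c =>
    Function.extend κ (fun b => j (fun i => ω (b.1, b.2.1, i)) b.2.2) 0 (i, c)
  have hz : ∀ i, Continuous fun ω => z ω i := fun i => continuous_pi fun c =>
    grp_cont hκ (F := fun (ω : Fin M × Fin G × Fin t → S2) b =>
      j (fun i => ω (b.1, b.2.1, i)) b.2.2) (fun b => by fun_prop) 0 (i, c)
  let B : Finset ((Fin M × Fin G × Fin (2 * t + 1)) × Fin t) :=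
    Finset.univ.filter fun b => (κ b.1).1 ∉ Fr
  refine ⟨M, B.image fun b => (b.1.1, b.1.2.1, b.2), fun ω => φ (z ω), ?_, fun ω => hφY _,
    fun ω γ hγ => ?_, ?_⟩
  · refine continuous_induced_rng.2 (continuous_pi fun i => ?_)
    simp only [Function.comp_apply, hφ]
    split_ifs
    · exact he.comp (hz i)
    · exact continuous_const
  · refine Eq.trans (congrArg (fun y => r y γ.2.2) (funext fun a => ?_))
      (hrj (fun i => ω (γ.1, γ.2.1, i)) γ.2.2)
    have h1 : (κ (γ.1, γ.2.1, a)).1 ∈ Fr := by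
      by_contra h2
      exact hγ (Finset.mem_image.2 ⟨((γ.1, γ.2.1, a), γ.2.2),
        Finset.mem_filter.2 ⟨Finset.mem_univ _, h2⟩, rfl⟩)
    rw [H.zpow_apply, add_comm, hφ, if_pos h1, hfe]
    exact congrArg Subtype.val (hκ.extend_apply _ _ (γ.1, γ.2.1, a))
  · have h1 : B.card ≤ (((Finset.univ ×ˢ S).filter fun a : Fin M × ℕ =>
        (Q : ℤ) * (a.1 : ℕ) + a.2 ∉ Fr) ×ˢ (Finset.univ : Finset (Fin k × Fin t))).card := by
      refine Finset.card_le_card_of_injOn
        (fun b => ((b.1.1, ((ι b.1.2).1 : ℕ)), (ι b.1.2).2, b.2)) (fun b hb => ?_) ?_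
      · exact Finset.mem_coe.2 (Finset.mem_product.2 ⟨Finset.mem_filter.2
          ⟨Finset.mem_product.2 ⟨Finset.mem_univ _, (ι b.1.2).1.2⟩,
            (Finset.mem_filter.1 (Finset.mem_coe.1 hb)).2⟩, Finset.mem_univ _⟩)
      · intro b _ b' _ hb
        simp only [Prod.mk.injEq] at hb
        exact Prod.ext (Prod.ext hb.1.1 (ι.injective (Prod.ext (Subtype.ext hb.1.2) hb.2.1)))
          hb.2.2
    have h2 := (Finset.card_image_le (f := fun b => (b.1.1, b.1.2.1, b.2))).trans h1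
    rw [Finset.card_product, Finset.card_univ, Fintype.card_prod, Fintype.card_fin,
      Fintype.card_fin] at h2
    have h3 := (Nat.cast_le (α := ℝ)).2 h2
    push_cast at h3
    have h4 := mul_le_mul_of_nonneg_right hcard (by positivity : (0 : ℝ) ≤ k * t)
    refine (Nat.cast_lt (α := ℝ)).1 ?_
    push_cast
    linarith

end Vale.Agent.P093
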