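import Vale.Agent.P093.Defs

/-! P093 Pat (TASK). Basic facts on patterns. Helper names start with `pat_`.
Periodicity: `Function.Periodic`, `Function.Periodic.int_mul`, `Int.emod_add_mul_ediv`. `st_shift`: the count over one period does not depend on the start (`st w (a + 1) q = st w a q` by `Finset.sum_range_succ`, `sum_range_succ'`, then integer induction). `st_mul`: `st_add`, induction.
`exists_window`: `∑ a ∈ range q, st w a N = ∑ i ∈ range N, st w i q = N * st w 0 q` (`Finset.card_filter`, `sum_comm`), `Finset.exists_le_of_sum_le`.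
`isClosed_offs`: intersection of closed sets. `isClosed_block`: the offsets may be taken in `[0, q n)`, finite union. -/

open Filter Topology Set

noncomputable section

namespace Vale.Agent.P093

section

variable {K : Type} {w : ℤ → Option K} {q : ℕ}

open Classical in
/-- The indicator of the holes. -/
def pat_ind (w : ℤ → Option K) (i : ℤ) : ℕ := if w i = none then 1 else 0

theorem pat_sum (w : ℤ → Option K) (a : ℤ) (N : ℕ) :
    st w a N = ∑ i ∈ Finset.range N, pat_ind w (a + i) := by
  unfold st pat_ind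
  rw [Finset.card_filter]

theorem per_mul (hw : ∀ i, w (i + q) = w i) (i m : ℤ) : w (i + q * m) = w i := by
  have h : Function.Periodic w (q : ℤ) := hw
  have := h.int_mul m i
  rwa [Int.cast_id, mul_comm] at this

theorem st_le (w : ℤ → Option K) (a : ℤ) (N : ℕ) : st w a N ≤ N := by
  classical
  unfold st
  exact (Finset.card_filter_le _ _).trans_eq (Finset.card_range N)

theorem st_add (w : ℤ → Option K) (a : ℤ) (N N' : ℕ) :
    st w a (N + N') = st w a N + st w (a + N) N' := by
  rw [pat_sum, pat_sum, pat_sum, Finset.sum_range_add]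
  simp only [Nat.cast_add, add_assoc]

theorem st_shift (hw : ∀ i, w (i + q) = w i) (a : ℤ) : st w a q = st w 0 q := by
  have h1 : ∀ a : ℤ, st w (a + 1) q = st w a q := fun a => by
    have h2 := st_add w a 1 q
    have h3 := st_add w a q 1
    have h4 : st w (a + q) 1 = st w a 1 := by
      simp only [pat_sum, Finset.sum_range_one, Nat.cast_zero, add_zero, pat_ind, hw]
    rw [add_comm 1 q, h3, h4, Nat.cast_one] at h2
    omega
  induction a using Int.induction_on with
  | zero => rfl
  | succ i ih => rw [h1, ih]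
  | pred i ih => rw [← h1, sub_add_cancel, ih]

theorem st_mul (hw : ∀ i, w (i + q) = w i) (a : ℤ) (m : ℕ) : st w a (q * m) = m * st w 0 q := by
  induction m with
  | zero => simp [st]
  | succ m ih => rw [Nat.mul_succ, st_add, ih, st_shift hw (a + _), Nat.succ_mul]

theorem st_upper (hw : ∀ i, w (i + q) = w i) (hq : 0 < q) (a : ℤ) (N : ℕ) :
    (st w a N : ℝ) ≤ st w 0 q / q * N + q := by
  have h1 : st w a N = N / q * st w 0 q + st w (a + (q * (N / q) : ℕ)) (N % q) := by
    rw [← st_mul hw a, ← st_add, Nat.div_add_mod]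
  have h2 : st w (a + (q * (N / q) : ℕ)) (N % q) ≤ q :=
    (st_le _ _ _).trans (Nat.mod_lt N hq).le
  have h3 : ((N / q : ℕ) : ℝ) ≤ N / q := Nat.cast_div_le
  have h4 : (0 : ℝ) ≤ st w 0 q := Nat.cast_nonneg _
  have h5 : (st w (a + (q * (N / q) : ℕ)) (N % q) : ℝ) ≤ q := by exact_mod_cast h2
  rw [h1, Nat.cast_add, Nat.cast_mul]
  refine add_le_add ?_ h5
  calc ((N / q : ℕ) : ℝ) * st w 0 q ≤ N / q * st w 0 q := mul_le_mul_of_nonneg_right h3 h4
    _ = _ := by ring

theorem exists_window (hw : ∀ i, w (i + q) = w i) (hq : 0 < q) (N : ℕ) :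
    ∃ a : ℤ, (st w 0 q : ℝ) / q * N ≤ st w a N := by
  have h1 : ∑ a ∈ Finset.range q, st w a N = ∑ _a ∈ Finset.range q, 0 + N * st w 0 q := by
    simp only [pat_sum]
    rw [Finset.sum_comm]
    have h2 : ∀ i ∈ Finset.range N, ∑ a ∈ Finset.range q, pat_ind w ((a : ℤ) + i) =
        ∑ a ∈ Finset.range q, pat_ind w (0 + a) := fun i _ => by
      rw [← pat_sum, ← st_shift hw i, pat_sum]
      simp only [add_comm]
    rw [Finset.sum_congr rfl h2]
    simp
  have hq' : (0 : ℝ) < q := by exact_mod_cast hq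
  have h2 : ∑ _a ∈ Finset.range q, (st w 0 q : ℝ) / q * N ≤
      ∑ a ∈ Finset.range q, (st w a N : ℝ) := by
    rw [← Nat.cast_sum, h1]
    simp only [Finset.sum_const, Finset.card_range, nsmul_eq_mul, mul_zero, zero_add,
      Nat.cast_mul]
    exact le_of_eq (by field_simp)
  obtain ⟨a, -, ha⟩ := Finset.exists_le_of_sum_le ⟨0, Finset.mem_range.2 hq⟩ h2
  exact ⟨a, ha⟩

theorem offs_per (hw : ∀ i, w (i + q) = w i) {x : ℤ → K} {k : ℤ} (hk : k ∈ offs w x) (m : ℤ) :
    k + q * m ∈ offs w x := by
  intro i c hc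
  rw [← add_assoc, per_mul hw] at hc
  exact hk i c hc

theorem isClosed_offs [TopologicalSpace K] [T2Space K] (w : ℤ → Option K) (k : ℤ) :
    IsClosed {x : ℤ → K | k ∈ offs w x} := by
  have : {x : ℤ → K | k ∈ offs w x} =
      ⋂ i, ⋂ c, ⋂ (_ : w (i + k) = some c), {x : ℤ → K | x i = c} := by
    ext x
    simp [offs]
  rw [this]
  exact isClosed_iInter fun i => isClosed_iInter fun c => isClosed_iInter fun _ =>
    isClosed_eq (continuous_apply i) continuous_const

end

variable {K : Type} [TopologicalSpace K] {w : ℕ → ℤ → Option K} {q : ℕ → ℕ}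
  {h : blockSet w ≃ₜ blockSet w}

theorem rho_nonneg (w : ℕ → ℤ → Option K) (q : ℕ → ℕ) : 0 ≤ rho w q := by
  exact Real.iInf_nonneg fun n => by positivity

theorem rho_le (w : ℕ → ℤ → Option K) (q : ℕ → ℕ) (n : ℕ) :
    rho w q ≤ (st (w n) 0 (q n) : ℝ) / q n := by
  exact ciInf_le (f := fun n => (st (w n) 0 (q n) : ℝ) / q n)
    ⟨0, by rintro _ ⟨n, rfl⟩; positivity⟩ n

theorem Pat.rho_le_one (H : Pat w q h) : rho w q ≤ 1 := by
  refine (rho_le w q 0).trans ((div_le_one (by exact_mod_cast H.pos 0)).2 ?_)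
  exact_mod_cast st_le _ _ _

theorem Pat.nest_le (H : Pat w q h) {n m : ℕ} (hnm : n ≤ m) {i : ℤ} {c : K}
    (hc : w n i = some c) : w m i = some c := by
  induction hnm with
  | refl => exact hc
  | step _ ih => exact H.nest _ _ _ ih

theorem Pat.zpow_apply (H : Pat w q h) (l : ℤ) (x : blockSet w) (i : ℤ) :
    ((h ^ l) x).1 i = x.1 (i + l) := by
  induction l using Int.induction_on generalizing x i with
  | zero => simp
  | succ l ih =>
    rw [zpow_add_one, Homeomorph.mul_apply, ih, H.sh, add_assoc]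
  | pred l ih =>
    have h1 : ∀ (y : blockSet w) (j : ℤ), (h⁻¹ y).1 j = y.1 (j - 1) := fun y j => by
      have := H.sh (h⁻¹ y) (j - 1)
      rw [← Homeomorph.mul_apply, mul_inv_cancel, sub_add_cancel] at this
      exact this.symm
    rw [zpow_sub_one, Homeomorph.mul_apply, ih, h1, add_sub_assoc]

theorem Pat.iter_apply (H : Pat w q h) (l : ℕ) (x : blockSet w) (i : ℤ) :
    (h^[l] x).1 i = x.1 (i + l) := by
  induction l generalizing x i with
  | zero => simp
  | succ l ih => rw [Function.iterate_succ_apply, ih, H.sh, Nat.cast_succ, add_assoc]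

theorem Pat.offs_zpow (H : Pat w q h) (n : ℕ) (l : ℤ) (x : blockSet w) (k : ℤ) :
    k ∈ offs (w n) ((h ^ l) x).1 ↔ k - l ∈ offs (w n) x.1 := by
  constructor
  · intro hk i c hc
    have := hk (i - l) c (by rw [← hc]; congr 1; ring)
    rwa [H.zpow_apply, sub_add_cancel] at this
  · intro hk i c hc
    rw [H.zpow_apply]
    exact hk (i + l) c (by rw [← hc]; congr 1; ring)

theorem Pat.isClosed_block [T2Space K] (H : Pat w q h) : IsClosed (blockSet w) := by
  have : blockSet w = ⋂ n, ⋃ k ∈ Finset.range (q n), {x : ℤ → K | (k : ℤ) ∈ offs (w n) x} := by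
    ext x
    simp only [mem_iInter, mem_iUnion, mem_ofPred_eq, Finset.mem_range, exists_prop]
    refine forall_congr' fun n => ⟨fun ⟨k, hk⟩ => ?_, fun ⟨k, _, hk⟩ => ⟨k, hk⟩⟩
    have hq : (0 : ℤ) < q n := by exact_mod_cast H.pos n
    have h1 := Int.emod_nonneg k hq.ne'
    have h2 := Int.emod_lt_of_pos k hq
    refine ⟨(k % q n).toNat, by omega, ?_⟩
    rw [Int.toNat_of_nonneg h1, Int.emod_def, sub_eq_add_neg, ← mul_neg]
    exact offs_per (H.per n) hk _
  rw [this]
  exact isClosed_iInter fun n => isClosed_biUnion_finset fun k _ => isClosed_offs _ _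

theorem Pat.compact [T2Space K] [CompactSpace K] (H : Pat w q h) : CompactSpace (blockSet w) :=
  isCompact_iff_compactSpace.1 H.isClosed_block.isCompact

end Vale.Agent.P093
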