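import Vale.Agent.P093.MdA
import Vale.Agent.P093.Pat

/-! P093 Md (TASK). The upper bound for the mean dimension. Helper names start with `md_`.
`md_leb` (helper): for a finite open cover `𝒰` of the compact space `blockSet w` there are `R : ℕ`, `ε > 0` such that for every `x` some `U ∈ 𝒰` contains all `x'` with `dist (x.1 i) (x'.1 i) < ε` for `|i| ≤ R` (`lebesgue_number_lemma_sUnion` for the uniform structure of the subtype, `Pi.uniformity`, `Filter.mem_iInf`/`hasBasis_iInf`; or directly: each `x` has `R x`, `ε x` with the `2 ε x`-box inside some `U` (`isOpen_pi_iff`), finitely many `ε x`-boxes cover).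
For `N` apply `leastOrd_le` with `Λ' = Fin (N + 2 R + 1) × Λ`, `ψ' (i, l) x = ψ l (x.1 (i - R))`, `B = {0, 1} ∪ {ψ l c | c a value of w n}` (finite by periodicity); for `x` with offset `a` only the holes count: at most `k * st (w n) (a - R) (N + 2 R + 1)`, bounded by `st_upper`. So `leastOrd (joinCov h 𝒰 N) ≤ k ρ N + C`; `limsup_le_of_le`/`Tendsto.limsup_eq`, `limsup_le_limsup`, `ENNReal.ofReal` (compare with the sequence `ofReal (k ρ + C / N)`). -/

open Filter Topology Set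

noncomputable section

namespace Vale.Agent.P093

variable {K : Type} [MetricSpace K] [CompactSpace K] {w : ℕ → ℤ → Option K} {q : ℕ → ℕ}
  {h : blockSet w ≃ₜ blockSet w} {k : ℕ}

theorem md_leb (H : Pat w q h) {𝒰 : Set (Set (blockSet w))} (hU : IsCover 𝒰) :
    ∃ (R : ℕ) (ε : ℝ), 0 < ε ∧ ∀ x : blockSet w, ∃ U ∈ 𝒰, ∀ x' : blockSet w,
      (∀ i : ℤ, |i| ≤ R → dist (x.1 i) (x'.1 i) < ε) → x' ∈ U := by
  have := H.compact
  by_contra hc
  push Not at hc
  choose x hx using fun R : ℕ => hc R (1 / (R + 1)) Nat.one_div_pos_of_nat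
  obtain ⟨y, φ, hφ, hy⟩ := CompactSpace.tendsto_subseq x
  obtain ⟨U, hUm, hyU⟩ : y ∈ ⋃₀ 𝒰 := hU.2.2 ▸ mem_univ y
  choose x' h1 h2 using fun R => hx R U hUm
  have t : Tendsto (x' ∘ φ) atTop (𝓝 y) := by
    rw [tendsto_subtype_rng, tendsto_pi_nhds] at hy ⊢
    intro i
    refine (hy i).congr_dist (squeeze_zero' (.of_forall fun _ => dist_nonneg) ?_
      (tendsto_one_div_add_atTop_nhds_zero_nat.comp hφ.tendsto_atTop))
    filter_upwards [hφ.tendsto_atTop.eventually_ge_atTop i.natAbs] with n hn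
    exact (h1 _ i (by rw [Int.abs_eq_natAbs]; exact_mod_cast hn)).le
  exact h2 _ (t.eventually ((hU.2.1 U hUm).mem_nhds hyU)).exists.choose_spec

theorem md_ord (H : Pat w q h) (hK : ∀ 𝒰 : Set (Set K), IsCover 𝒰 → leastOrd 𝒰 ≤ k) (n : ℕ)
    {𝒰 : Set (Set (blockSet w))} (hU : IsCover 𝒰) : ∃ R : ℕ, ∀ N : ℕ,
      leastOrd (joinCov h 𝒰 N) ≤
        k * ⌊(st (w n) 0 (q n) : ℝ) / q n * (N + 2 * R + 1 : ℕ) + q n⌋₊ := by
  classical
  obtain ⟨R, ε, hε, hR⟩ := md_leb H hU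
  obtain ⟨Λ, _, ψ, c1, c2, c3, c4⟩ := exists_bumps hK hε
  have := Fintype.ofFinite Λ
  have fv : {c | ∃ i, w n i = some c}.Finite := by
    refine (((finite_Ico (0 : ℤ) (q n)).image (w n)).preimage
      (Option.some_injective _).injOn).subset ?_
    rintro c ⟨i, hi⟩
    have q0 : (0 : ℤ) < q n := by exact_mod_cast H.pos n
    refine ⟨i % q n, ⟨Int.emod_nonneg _ q0.ne', Int.emod_lt_of_pos _ q0⟩, ?_⟩
    rw [← per_mul (H.per n) _ (i / q n), Int.emod_add_mul_ediv, hi]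
  have ce : ∀ l i, Continuous fun x : blockSet w => ψ l (x.1 i) := fun l i =>
    (c1 l).comp ((continuous_apply i).comp continuous_subtype_val)
  refine ⟨R, fun N => leastOrd_le (Λ := Fin (N + 2 * R + 1) × Λ)
    (fun p x => ψ p.2 (x.1 ((p.1 : ℕ) - R)))
    (fun p => ce p.2 _)
    (B := {0, 1} ∪ ⋃ l, ψ l '' {c | ∃ i, w n i = some c})
    ((toFinite _).union (finite_iUnion fun l => fv.image _)) (fun x => ?_) fun x => ?_⟩
  · obtain ⟨a, ha⟩ := x.2 n
    refine le_trans ?_ (Nat.mul_le_mul_left k (Nat.le_floor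
      (st_upper (H.per n) (H.pos n) (a - R) (N + 2 * R + 1))))
    rw [ncard_eq_toFinset_card', st]
    refine Finset.card_le_mul_card_image_of_maps_to (f := fun p => (p.1 : ℕ)) (fun p hp => ?_) k
      fun b _ => ?_
    · rw [mem_toFinset] at hp
      refine Finset.mem_filter.2 ⟨Finset.mem_range.2 p.1.2, by_contra fun hn => hp ?_⟩
      obtain ⟨c, hc⟩ := Option.ne_none_iff_exists'.1 hn
      refine Or.inr (mem_iUnion.2 ⟨p.2, c, ⟨_, hc⟩, ?_⟩)
      rw [ha _ c (by rw [← hc]; congr 1; ring)]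
    · refine le_trans ?_ (c3 (x.1 (b - R)))
      rw [ncard_eq_toFinset_card']
      refine Finset.card_le_card_of_injOn Prod.snd (fun p hp => ?_) fun p hp p' hp' e => ?_
      · obtain ⟨h1, rfl⟩ := Finset.mem_filter.1 hp
        rw [mem_toFinset] at h1
        exact Finset.mem_coe.2 (mem_toFinset.2 fun h2 => h1 (Or.inl h2))
      · exact Prod.ext (Fin.ext ((Finset.mem_filter.1 hp).2.trans
          (Finset.mem_filter.1 hp').2.symm)) e
  · choose U h1 h2 using fun j : Fin N => hR (h^[j] x)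
    refine ⟨_, ⟨U, h1, rfl⟩, fun x' hx' => mem_iInter.2 fun j => h2 j _ fun i hi => ?_⟩
    rw [H.iter_apply, H.iter_apply]
    obtain ⟨l, hl⟩ := c2 (x.1 (i + (j : ℕ)))
    have hj := j.2
    obtain ⟨i1, i2⟩ := abs_le.1 hi
    have e : (((i + (j : ℕ) + R).toNat : ℕ) : ℤ) - R = i + (j : ℕ) := by omega
    have := hx' (⟨(i + (j : ℕ) + R).toNat, by omega⟩, l)
    simp only [e] at this
    exact c4 l _ _ hl (this hl)

theorem Pat.mdim_le_lev (H : Pat w q h) (hK : ∀ 𝒰 : Set (Set K), IsCover 𝒰 → leastOrd 𝒰 ≤ k)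
    (n : ℕ) : mdim h ≤ ENNReal.ofReal (k * ((st (w n) 0 (q n) : ℝ) / q n)) := by
  refine iSup₂_le fun 𝒰 hU => ?_
  obtain ⟨R, hR⟩ := md_ord H hK n hU
  obtain ⟨ρ, hρ⟩ : ∃ ρ, ρ = (st (w n) 0 (q n) : ℝ) / q n := ⟨_, rfl⟩
  have ρ0 : 0 ≤ ρ := by rw [hρ]; positivity
  rw [← hρ] at hR ⊢
  have t := ENNReal.tendsto_ofReal ((tendsto_const_nhds (x := k * ρ)).add
    (tendsto_const_div_atTop_nhds_zero_nat (k * (ρ * (2 * R + 1) + q n))))
  rw [add_zero] at t
  refine (limsup_le_limsup ?_).trans_eq t.limsup_eq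
  filter_upwards [eventually_gt_atTop 0] with N hN
  have N0 : (0 : ℝ) < N := Nat.cast_pos.2 hN
  rw [← ENNReal.ofReal_natCast, ← ENNReal.ofReal_natCast N, ← ENNReal.ofReal_div_of_pos N0]
  refine ENNReal.ofReal_le_ofReal ?_
  have a : (leastOrd (joinCov h 𝒰 N) : ℝ) ≤ k * (⌊ρ * (N + 2 * R + 1 : ℕ) + q n⌋₊ : ℝ) := by
    exact_mod_cast hR N
  have b := a.trans (mul_le_mul_of_nonneg_left (Nat.floor_le (by positivity)) k.cast_nonneg)
  rw [div_le_iff₀ N0, add_mul, div_mul_cancel₀ _ N0.ne']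
  push_cast at b
  linarith

theorem Pat.mdim_le (H : Pat w q h) (hK : ∀ 𝒰 : Set (Set K), IsCover 𝒰 → leastOrd 𝒰 ≤ k) :
    mdim h ≤ ENNReal.ofReal (k * rho w q) := by
  rw [rho, Monotone.map_ciInf_of_continuousAt (f := fun t : ℝ => ENNReal.ofReal (k * t))
    (ENNReal.continuous_ofReal.comp (by fun_prop)).continuousAt
    (fun a b hab => ENNReal.ofReal_le_ofReal (by gcongr))
    ⟨0, by rintro _ ⟨n, rfl⟩; positivity⟩]
  exact le_iInf (H.mdim_le_lev hK)

end Vale.Agent.P093
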