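import Vale.Agent.P093.Defs

/-! P093 MdA (TASK). Covers from level sets. Helper names start with `mda_`.
`leastOrd_le`: choose an injective `θ : Fin (m + 1) → ℝ` with values in `Ioo 0 1 \ B` (an infinite set: `Set.Infinite.exists_subset_card_eq` or `Infinite.natEmbedding`). `W j T = {x | ∀ l, (l ∈ T → θ j < ψ l x) ∧ (l ∉ T → ψ l x < θ j)}` for `T : Set Λ` is open; `𝒱` = the nonempty ones.
Every `x` has some `j` with `ψ l x ≠ θ j` for all `l` (pigeonhole: otherwise `j ↦ l j` injects `Fin (m + 1)` into the set of cardinality at most `m`), so `x ∈ W j {l | θ j < ψ l x}`; `{V ∈ 𝒱 | x ∈ V}` lies in the range of `j ↦ W j {l | θ j < ψ l x}`. `Nat.sInf_le`.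
`exists_bumps`: cover `K` by finitely many balls of radius `ε / 2` (as a set `𝒰` of sets), `Nat.sInf_mem` (the set is nonempty: `𝒰` itself with `n = ncard 𝒰`) gives `𝒱`; `Λ = 𝒱` as a type; shrink (`exists_iUnion_eq_closure_subset` or a Lebesgue number) and take Urysohn functions `ψ V` equal to `1` on the closed shrinking, `0` off `V`, values in `[0, 1]`. At `c` at most `k + 1` functions are nonzero and one of them is `1`. -/

open Filter Topology Set

noncomputable section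

namespace Vale.Agent.P093

theorem leastOrd_le {X Λ : Type} [TopologicalSpace X] [Finite Λ] (ψ : Λ → X → ℝ)
    (hψ : ∀ l, Continuous (ψ l)) {B : Set ℝ} (hB : B.Finite) {m : ℕ}
    (hm : ∀ x, {l | ψ l x ∉ B}.ncard ≤ m) {𝒰 : Set (Set X)}
    (hU : ∀ x, ∃ U ∈ 𝒰, ∀ x', (∀ l, ψ l x = 1 → 0 < ψ l x') → x' ∈ U) : leastOrd 𝒰 ≤ m := by
  have hinf : (Ioo (0 : ℝ) 1 \ B).Infinite := (Ioo_infinite zero_lt_one).sdiff hB
  let θ : Fin (m + 1) → ℝ := fun j => (hinf.natEmbedding _ j : ℝ)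
  have hθ : ∀ j, θ j ∈ Ioo (0 : ℝ) 1 \ B := fun j => (hinf.natEmbedding _ j).2
  have hinj : Function.Injective θ := fun i j h =>
    Fin.ext ((hinf.natEmbedding _).injective (Subtype.ext h))
  let W : Fin (m + 1) → Set Λ → Set X := fun j T =>
    {x | ∀ l, (l ∈ T → θ j < ψ l x) ∧ (l ∉ T → ψ l x < θ j)}
  have hW : ∀ j T, IsOpen (W j T) := fun j T => by
    have e : W j T = ⋂ l, {x | (l ∈ T → θ j < ψ l x) ∧ (l ∉ T → ψ l x < θ j)} := by
      ext x
      simp only [W, mem_ofPred_eq, mem_iInter]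
    rw [e]
    refine isOpen_iInter_of_finite fun l => ?_
    by_cases hl : l ∈ T
    · simp only [hl, forall_true_left, not_true_eq_false, IsEmpty.forall_iff, and_true]
      exact isOpen_lt continuous_const (hψ l)
    · simp only [hl, forall_true_left, not_false_eq_true, IsEmpty.forall_iff, true_and]
      exact isOpen_lt (hψ l) continuous_const
  refine Nat.sInf_le ⟨{V | V.Nonempty ∧ ∃ j T, V = W j T}, ⟨?_, ?_, ?_⟩, ?_, fun x => ?_⟩
  · refine (finite_range fun p : Fin (m + 1) × Set Λ => W p.1 p.2).subset ?_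
    rintro _ ⟨-, j, T, rfl⟩
    exact ⟨(j, T), rfl⟩
  · rintro _ ⟨-, j, T, rfl⟩
    exact hW j T
  · refine eq_univ_of_forall fun x => ?_
    obtain ⟨j, hj⟩ : ∃ j, ∀ l, ψ l x ≠ θ j := by
      by_contra hn
      push Not at hn
      choose f hf using hn
      have hfi : Function.Injective f := fun i j h => hinj (by rw [← hf, ← hf, h])
      have h1 : (range f).ncard ≤ m :=
        (ncard_le_ncard (by
          rintro _ ⟨j, rfl⟩
          rw [mem_ofPred_eq, hf]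
          exact (hθ j).2) (toFinite _)).trans (hm x)
      rw [ncard_range_of_injective hfi, Nat.card_eq_fintype_card, Fintype.card_fin] at h1
      omega
    have hx : x ∈ W j {l | θ j < ψ l x} := fun l =>
      ⟨fun h => h, fun h => lt_of_le_of_ne (not_lt.1 h) (hj l)⟩
    exact ⟨_, ⟨⟨x, hx⟩, j, _, rfl⟩, hx⟩
  · rintro _ ⟨⟨x, hx⟩, j, T, rfl⟩
    obtain ⟨U, hU1, hU2⟩ := hU x
    refine ⟨U, hU1, fun x' hx' => hU2 x' fun l hl => ?_⟩
    by_cases hT : l ∈ T
    · exact (hθ j).1.1.trans ((hx' l).1 hT)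
    · have := (hx l).2 hT
      rw [hl] at this
      exact absurd (hθ j).1.2 this.not_gt
  · have hs : {V ∈ {V | V.Nonempty ∧ ∃ j T, V = W j T} | x ∈ V} ⊆
        (fun j => W j {l | θ j < ψ l x}) '' univ := by
      rintro _ ⟨⟨-, j, T, rfl⟩, hx⟩
      refine ⟨j, mem_univ _, congrArg (W j) (Set.ext fun l => ⟨fun h => ?_, (hx l).1⟩)⟩
      by_contra hT
      exact absurd ((hx l).2 hT) (not_lt.2 (le_of_lt h))
    refine (ncard_le_ncard hs (toFinite _)).trans ((ncard_image_le finite_univ).trans ?_)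
    rw [ncard_univ, Nat.card_eq_fintype_card, Fintype.card_fin]

theorem exists_bumps {K : Type} [MetricSpace K] [CompactSpace K] {k : ℕ}
    (hK : ∀ 𝒰 : Set (Set K), IsCover 𝒰 → leastOrd 𝒰 ≤ k) {ε : ℝ} (hε : 0 < ε) :
    ∃ (Λ : Type) (_ : Finite Λ) (ψ : Λ → K → ℝ), (∀ l, Continuous (ψ l)) ∧
      (∀ c, ∃ l, ψ l c = 1) ∧ (∀ c, {l | ψ l c ∉ ({0, 1} : Set ℝ)}.ncard ≤ k) ∧
      ∀ l c c', ψ l c = 1 → 0 < ψ l c' → dist c c' < ε := by
  obtain ⟨t, -, ht, hc⟩ := finite_cover_balls_of_compact (isCompact_univ (X := K)) (half_pos hε)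
  have h𝒰 : IsCover ((fun x => Metric.ball x (ε / 2)) '' t) := by
    refine ⟨ht.image _, ?_, ?_⟩
    · rintro _ ⟨x, -, rfl⟩
      exact Metric.isOpen_ball
    · rw [sUnion_image]
      exact univ_subset_iff.1 hc
  have hne : {n | ∃ 𝒱 : Set (Set K), IsCover 𝒱 ∧
      (∀ V ∈ 𝒱, ∃ U ∈ (fun x => Metric.ball x (ε / 2)) '' t, V ⊆ U) ∧
      ∀ x, {V ∈ 𝒱 | x ∈ V}.ncard ≤ n + 1}.Nonempty :=
    ⟨_, _, h𝒰, fun V hV => ⟨V, hV, subset_rfl⟩, fun x =>
      (ncard_le_ncard (sep_subset _ _) h𝒰.1).trans (Nat.le_succ _)⟩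
  obtain ⟨𝒱, h𝒱, hr, ho⟩ := Nat.sInf_mem hne
  have hk := hK _ h𝒰
  have : Finite 𝒱 := h𝒱.1
  obtain ⟨v, hv, -, hvc⟩ := exists_iUnion_eq_closure_subset (u := fun V : 𝒱 => (V : Set K))
    (fun V => h𝒱.2.1 V V.2) (fun x => toFinite _) (by rw [← sUnion_eq_iUnion]; exact h𝒱.2.2)
  have hf : ∀ V : 𝒱, ∃ f : C(K, ℝ), EqOn f 0 (V : Set K)ᶜ ∧ EqOn f 1 (closure (v V)) ∧
      ∀ x, f x ∈ Icc (0 : ℝ) 1 := fun V =>
    exists_continuous_zero_one_of_isClosed (h𝒱.2.1 V V.2).isClosed_compl isClosed_closure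
      (disjoint_compl_left_iff_subset.2 (hvc V))
  choose f h0 h1 _ using hf
  have hin : ∀ (V : 𝒱) c, f V c ≠ 0 → c ∈ (V : Set K) := fun V c h => by
    by_contra hn
    exact h (h0 V hn)
  have hone : ∀ c, ∃ V, f V c = 1 := fun c => by
    obtain ⟨V, hV⟩ := mem_iUnion.1 (hv.symm ▸ mem_univ c : c ∈ ⋃ V, v V)
    exact ⟨V, h1 V (subset_closure hV)⟩
  refine ⟨𝒱, inferInstance, fun V => f V, fun V => (f V).continuous, hone, fun c => ?_,
    fun V c c' h h' => ?_⟩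
  · obtain ⟨V₀, hV₀⟩ := hone c
    have hs : insert V₀ {V : 𝒱 | f V c ∉ ({0, 1} : Set ℝ)} ⊆ {V : 𝒱 | c ∈ (V : Set K)} := by
      rintro V (rfl | hV)
      · exact hin _ c (by rw [hV₀]; exact one_ne_zero)
      · exact hin _ c fun h => hV (Or.inl h)
    have h2 : {V : 𝒱 | c ∈ (V : Set K)}.ncard ≤ k + 1 := by
      rw [← ncard_image_of_injective _ Subtype.val_injective]
      refine (ncard_le_ncard ?_ (h𝒱.1.subset (sep_subset _ _))).trans
        ((ho c).trans (Nat.succ_le_succ hk))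
      rintro _ ⟨V, hV, rfl⟩
      exact ⟨V.2, hV⟩
    have h3 := (ncard_le_ncard hs (toFinite _)).trans h2
    have h4 : V₀ ∉ {V : 𝒱 | f V c ∉ ({0, 1} : Set ℝ)} := fun h => h (Or.inr hV₀)
    rw [ncard_insert_of_notMem h4 (toFinite _)] at h3
    exact Nat.le_of_succ_le_succ h3
  · obtain ⟨_, ⟨x, -, rfl⟩, hx⟩ := hr V V.2
    have a1 := hx (hin V c (h.trans_ne one_ne_zero))
    have a2 := hx (hin V c' h'.ne')
    rw [Metric.mem_ball] at a1 a2
    have := dist_triangle_right c c' x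
    linarith

end Vale.Agent.P093
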