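import Vale.Agent.P093.Prop

/-! P093 ObsA (TASK). Quadratic form estimate. Helper names start with `oba_`.
`oba_ne`: put `ξ i = Sum.elim (fun α => ∑ j, v (j, α) • dl (q j, y)) 0 i`, `η k = ∑ i, x k i (ξ i)`. If `∑ l, B k l (η l) = 0` for all `k` then `∑ i j, ⟪ξ i, (∑ k l, star (x k i) * B k l * x l j) (ξ j)⟫ = 0` (`ContinuousLinearMap.adjoint_inner_right`, `star_eq_adjoint`), while `∑ i j, ⟪ξ i, A i j (ξ j)⟫ = ∑ i, ‖ξ i‖ ^ 2` because `A i j (ξ j) = if i = j then ξ j else 0` (`lp.ext`; `ξ j` lives on points with `g = 1`).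
So `∑ ‖ξ i‖ ^ 2 ≤ ε (∑ ‖ξ i‖) ^ 2 ≤ ε card * ∑ ‖ξ i‖ ^ 2` (`sq_sum_le_card_mul_sum_sq`), hence `ξ = 0`, and `ξ (inl α) (q j, y) = v (j, α)`.
`exists_coord`: some `(∑ l, B k l (η l)) p ≠ 0`; evaluate (`lp.coeFn_sum`, `Finset.sum_apply`): `η l p = ∑ j α, v (j, α) * x l (inl α) (dl (q j, y)) p`; `FP.supp` gives `p.2 = y` and the range of `p.1`; `g ((h ^ p.1) y) ≠ 0` gives `q ∣ p.1`. -/

open Filter Topology Set

noncomputable section

namespace Vale.Agent.P093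

variable {X : Type} [TopologicalSpace X] {h : X ≃ₜ X} {q p R M : ℕ} {L : Type} [Fintype L]
  [DecidableEq L] {Y : Set X}

theorem oba_zero {H I : Type} [NormedAddCommGroup H] [NormedSpace ℂ H] [Fintype I] [DecidableEq I]
    {A B x z : I → I → H →L[ℂ] H} {ξ : I → H} (hA : ∀ i j, A i j (ξ j) = if i = j then ξ j else 0)
    (hε : ∀ i j, ‖∑ k, ∑ l, z k i * B k l * x l j - A i j‖ < 1 / (Fintype.card I + 1))
    (h0 : ∀ k, ∑ l, B k l (∑ j, x l j (ξ j)) = 0) (i : I) : ξ i = 0 := by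
  have : Nonempty I := ⟨i⟩
  obtain ⟨m, hm⟩ := Finite.exists_max fun i => ‖ξ i‖
  have e1 : ∑ j, (∑ k, ∑ l, z k m * B k l * x l j) (ξ j) = 0 := by
    simp only [_root_.sum_apply, mul_apply_eq_comp]
    rw [Finset.sum_comm]
    refine Finset.sum_eq_zero fun k _ => ?_
    have h1 := congrArg (z k m) (h0 k)
    simp only [map_sum, map_zero] at h1
    rw [Finset.sum_comm]
    exact h1
  have e2 : ∑ j, (∑ k, ∑ l, z k m * B k l * x l j - A m j) (ξ j) = -ξ m := by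
    simp only [_root_.sub_apply, Finset.sum_sub_distrib, e1, hA]
    simp
  have e3 : ‖ξ m‖ ≤ Fintype.card I * (1 / (Fintype.card I + 1) * ‖ξ m‖) := by
    conv_lhs => rw [← norm_neg, ← e2]
    refine (norm_sum_le _ _).trans ((Finset.sum_le_card_nsmul _ _ _ fun j _ =>
      (ContinuousLinearMap.le_opNorm _ _).trans (mul_le_mul (hε m j).le (hm j) (norm_nonneg _)
        (by positivity))).trans_eq ?_)
    rw [nsmul_eq_mul, Finset.card_univ]
  have c0 : (0 : ℝ) < Fintype.card I + 1 := by positivity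
  rw [← mul_assoc, mul_one_div, div_mul_eq_mul_div, le_div_iff₀ c0] at e3
  exact norm_le_zero_iff.1 ((hm i).trans (by linarith))

omit [TopologicalSpace X] in
theorem oba_sum {J : Type} (s : Finset J) (f : J → Hs X) (a : ℤ × X) :
    (∑ j ∈ s, f j) a = ∑ j ∈ s, f j a := by
  rw [lp.coeFn_sum, Finset.sum_apply]

omit [TopologicalSpace X] in
theorem oba_smul (c : ℂ) (f : Hs X) (a : ℤ × X) : (c • f) a = c * f a := by
  rw [lp.coeFn_smul, Pi.smul_apply, smul_eq_mul]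

theorem exists_coord (hY : Marker h q Y) (hq : 0 < q) {g : X → ℂ} (g1 : ∀ x ∈ Y, g x = 1)
    (g0 : ∀ x ∉ Y, g x = 0) (β : X → Matrix (Fin p ⊕ L × Fin 2) (Fin p ⊕ L × Fin 2) ℂ)
    {A B x : Fin p ⊕ L × Fin 2 → Fin p ⊕ L × Fin 2 → Hs X →L[ℂ] Hs X}
    (hA : ∀ i j ξ a, A i j ξ a = g ((h ^ a.1) a.2) * matA p L i j * ξ a)
    (hB : ∀ i j ξ a, B i j ξ a = g ((h ^ a.1) a.2) * β ((h ^ a.1) a.2) i j * ξ a)
    (hx : ∀ i j, FP R (x i j))
    (hε : ∀ i j, ‖∑ k, ∑ l, star (x k i) * B k l * x l j - A i j‖ <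
      1 / (Fintype.card (Fin p ⊕ L × Fin 2) + 1))
    {y : X} (hy : y ∈ Y) {v : Fin M × Fin p → ℂ} (hv : v ≠ 0) :
    ∃ (l : ℤ) (k : Fin p ⊕ L × Fin 2), (q : ℤ) ∣ l ∧ -(R : ℤ) ≤ l ∧ l ≤ q * M + R ∧
      ∑ k', β ((h ^ l) y) k k' *
        ∑ a : Fin M × Fin p, v a * x k' (.inl a.2) (dl ((q : ℤ) * (a.1 : ℕ), y)) (l, y) ≠ 0 := by
  classical
  obtain ⟨ξ, x1, x2⟩ : ∃ ξ : Fin p ⊕ L × Fin 2 → Hs X,
      (∀ α, ξ (.inl α) = ∑ j : Fin M, v (j, α) • dl ((q : ℤ) * (j : ℕ), y)) ∧ ∀ b, ξ (.inr b) = 0 :=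
    ⟨Sum.elim (fun α => ∑ j : Fin M, v (j, α) • dl ((q : ℤ) * (j : ℕ), y)) 0, fun _ => rfl,
      fun _ => rfl⟩
  have q0 : (0 : ℤ) < q := Int.natCast_pos.2 hq
  have a1 : ∀ i j, A i j (ξ j) = if i = j then ξ j else 0 := fun i j => by
    rcases j with α | b
    swap
    · rw [x2, map_zero, ite_self]
    refine lp.ext (funext fun a => ?_)
    rw [hA]
    by_cases h0 : ξ (.inl α) a = 0
    · split_ifs
      · rw [h0, mul_zero]
      · rw [h0, mul_zero]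
        rfl
    · have h1 := h0
      rw [x1, oba_sum] at h1
      obtain ⟨j, -, hj⟩ := Finset.exists_ne_zero_of_sum_ne_zero h1
      rw [oba_smul, dl_apply] at hj
      have h2 : a = ((q : ℤ) * (j : ℕ), y) := by
        by_contra h2
        rw [if_neg h2, mul_zero] at hj
        exact hj rfl
      have h3 : g ((h ^ a.1) a.2) = 1 := by
        rw [h2]
        exact g1 _ ((hY.ret y hy _).2 (dvd_mul_right _ _))
      rw [h3, one_mul, matA, Matrix.diagonal_apply]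
      split_ifs with h4
      · rw [h4, Sum.elim_inl, one_mul]
      · rw [zero_mul]
        rfl
  have a2 : ¬ ∀ k, ∑ l, B k l (∑ j, x l j (ξ j)) = 0 := fun h0 => hv (funext fun b => by
    have h1 := congrArg (fun f : Hs X => f ((q : ℤ) * (b.1 : ℕ), y))
      (oba_zero (z := fun k i => star (x k i)) a1 hε h0 (.inl b.2))
    simp only [x1, oba_sum, oba_smul, dl_apply] at h1
    rw [Finset.sum_eq_single b.1 (fun j _ hj => by
      rw [if_neg, mul_zero]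
      intro e
      exact hj (Fin.ext (Nat.cast_injective (R := ℤ)
        (mul_left_cancel₀ q0.ne' (congrArg Prod.fst e))).symm))
      (fun hb => absurd (Finset.mem_univ _) hb), if_pos rfl, mul_one] at h1
    exact h1)
  obtain ⟨k, hk⟩ := not_forall.1 a2
  obtain ⟨a, ha⟩ : ∃ a, (∑ l, B k l (∑ j, x l j (ξ j))) a ≠ 0 := by
    by_contra hc
    exact hk (lp.ext (funext fun a => not_not.1 (not_exists.1 hc a)))
  have e : ∀ l, (∑ j, x l j (ξ j)) a =
      ∑ b : Fin M × Fin p, v b * x l (.inl b.2) (dl ((q : ℤ) * (b.1 : ℕ), y)) a := fun l => by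
    rw [Fintype.sum_sum_type]
    simp only [x1, x2, map_zero, Finset.sum_const_zero, add_zero, map_sum, map_smul, oba_sum,
      oba_smul]
    rw [Fintype.sum_prod_type_right]
  simp only [oba_sum _ (fun l => B k l _), hB, e, mul_assoc, ← Finset.mul_sum] at ha
  obtain ⟨b1, b2⟩ := mul_ne_zero_iff.1 ha
  obtain ⟨l, -, hl⟩ := Finset.exists_ne_zero_of_sum_ne_zero b2
  obtain ⟨b, -, hb⟩ := Finset.exists_ne_zero_of_sum_ne_zero (right_ne_zero_of_mul hl)
  obtain ⟨s1, s2⟩ := (hx _ _).supp _ _ (right_ne_zero_of_mul hb)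
  obtain ⟨l', y'⟩ := a
  dsimp only at s1 s2 b1 b2
  subst s1
  have s3 := abs_le.1 s2
  have s4 : 0 ≤ (q : ℤ) * (b.1 : ℕ) := by positivity
  have s5 : (q : ℤ) * (b.1 : ℕ) ≤ q * M :=
    mul_le_mul_of_nonneg_left (by exact_mod_cast b.1.2.le) q0.le
  exact ⟨l', k, (hY.ret _ hy _).1 (by_contra fun hn => b1 (g0 _ hn)), by linarith [s3.1],
    by linarith [s3.2], b2⟩

end Vale.Agent.P093
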