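import Vale.Agent.P093.Defs

/-! P093 Op (TASK). The covariant representation. Helper names start with `op_`.
`exists_rep`: multiplication operator on `lp _ 2` by the bounded function `p ↦ f ((h ^ p.1) p.2)` (`Memℓp` by comparison, `memℓp_gen`, `LinearMap.mkContinuous`, `lp.norm_le_of_forall_sum_le` or `lp.norm_le_of_tsum_le`; Mathlib may have `lp.mapCLM`-type lemmas); star by `ContinuousLinearMap.eq_adjoint_iff`, `lp.inner_eq_tsum`; it lies in `cross h` (`StarAlgebra.subset_adjoin`, `StarSubalgebra.le_topologicalClosure`); `StarAlgHom.codRestrict` or build the map directly.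
Shifts `U ξ p = ξ (p.1 - 1, p.2)`, `V ξ p = ξ (p.1 + 1, p.2)` (`Equiv.summable_iff`, `Equiv.tsum_eq`), `star U = V`, `U V = V U = 1`, `V * π f * U = π (f ∘ h)` (`zpow_one_add`, `Homeomorph.mul_apply`).
`trace_ind`: `∑ j ∈ range q, g ∘ h ^ j = 1` (`Marker.cov`, `Marker.ret`: exactly one `j < q` has `q ∣ j - l`), and `μ (g ∘ h ^ j) = μ g` by induction. -/

open Filter Topology Set

noncomputable section

namespace Vale.Agent.P093

variable {X : Type} [TopologicalSpace X] [CompactSpace X] {h : X ≃ₜ X}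

theorem op_ex {I : Type} (e : I ≃ I) {a : I → ℂ} {C : ℝ} (hC : 0 ≤ C) (ha : ∀ p, ‖a p‖ ≤ C) :
    ∃ T : lp (fun _ : I => ℂ) 2 →L[ℂ] lp (fun _ : I => ℂ) 2, ∀ ξ p, T ξ p = a p * ξ (e p) := by
  have p0 : 0 < (2 : ENNReal).toReal := by norm_num
  have s1 : ∀ ξ : lp (fun _ : I => ℂ) 2,
      Summable fun p => C ^ (2 : ENNReal).toReal * ‖ξ (e p)‖ ^ (2 : ENNReal).toReal := fun ξ =>
    (e.summable_iff.2 ((lp.memℓp ξ).summable p0)).mul_left _
  have l1 : ∀ (ξ : lp (fun _ : I => ℂ) 2) p, ‖a p * ξ (e p)‖ ^ (2 : ENNReal).toReal ≤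
      C ^ (2 : ENNReal).toReal * ‖ξ (e p)‖ ^ (2 : ENNReal).toReal := fun ξ p => by
    rw [← Real.mul_rpow hC (norm_nonneg _), norm_mul]
    exact Real.rpow_le_rpow (by positivity) (mul_le_mul_of_nonneg_right (ha p) (norm_nonneg _))
      p0.le
  have s2 : ∀ ξ : lp (fun _ : I => ℂ) 2,
      Summable fun p => ‖a p * ξ (e p)‖ ^ (2 : ENNReal).toReal := fun ξ =>
    (s1 ξ).of_nonneg_of_le (fun _ => by positivity) (l1 ξ)
  let L : lp (fun _ : I => ℂ) 2 →ₗ[ℂ] lp (fun _ : I => ℂ) 2 :=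
    { toFun := fun ξ => ⟨fun p => a p * ξ (e p), memℓp_gen (s2 ξ)⟩
      map_add' := fun ξ η => lp.ext (funext fun p => mul_add _ _ _)
      map_smul' := fun c ξ => lp.ext (funext fun p => mul_left_comm _ _ _) }
  refine ⟨L.mkContinuous C fun ξ => lp.norm_le_of_tsum_le p0 (by positivity) ?_, fun _ _ => rfl⟩
  refine ((s2 ξ).tsum_le_tsum (l1 ξ) (s1 ξ)).trans_eq ?_
  rw [tsum_mul_left, e.tsum_eq fun p => ‖ξ p‖ ^ (2 : ENNReal).toReal, ← lp.norm_rpow_eq_tsum p0,
    Real.mul_rpow hC (norm_nonneg _)]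

theorem op_star {I : Type} (e : I ≃ I) {a : I → ℂ}
    {T S : lp (fun _ : I => ℂ) 2 →L[ℂ] lp (fun _ : I => ℂ) 2} (hT : ∀ ξ p, T ξ p = a p * ξ (e p))
    (hS : ∀ ξ p, S ξ (e p) = star (a p) * ξ p) : S = star T := by
  rw [ContinuousLinearMap.star_eq_adjoint, ContinuousLinearMap.eq_adjoint_iff]
  intro ξ η
  rw [lp.inner_eq_tsum, lp.inner_eq_tsum, ← e.tsum_eq]
  refine tsum_congr fun p => ?_
  simp only [hT, hS, RCLike.inner_apply, map_mul, RCLike.star_def, RCLike.conj_conj]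
  ring

theorem op_ext {T S : Hs X →L[ℂ] Hs X} (h : ∀ ξ p, T ξ p = S ξ p) : T = S :=
  ContinuousLinearMap.ext fun ξ => lp.ext (funext (h ξ))

theorem exists_rep (h : X ≃ₜ X) : ∃ π : C(X, ℂ) →⋆ₐ[ℂ] cross h, Rep h π ∧
    ∀ τ : cross h →ₗ[ℂ] ℂ, IsTracial τ → ∀ f, τ (π (f.comp ⟨h, h.continuous⟩)) = τ (π f) := by
  choose M hM using fun f : C(X, ℂ) => op_ex (Equiv.refl (ℤ × X))
    (a := fun p => f ((h ^ p.1) p.2)) (norm_nonneg f) fun p => f.norm_coe_le_norm _
  simp only [Equiv.refl_apply] at hM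
  have mem : ∀ T ∈ gens h, T ∈ cross h := fun T hT =>
    StarSubalgebra.le_topologicalClosure _ (StarAlgebra.subset_adjoin ℂ _ hT)
  let π : C(X, ℂ) →⋆ₐ[ℂ] cross h :=
    { toFun := fun f => ⟨M f, mem _ (Or.inl ⟨f, hM f⟩)⟩
      map_one' := Subtype.ext (op_ext fun ξ p => by simp [hM])
      map_mul' := fun f g => Subtype.ext (op_ext fun ξ p => by simp [hM, mul_assoc])
      map_zero' := Subtype.ext (op_ext fun ξ p => by simp [hM])
      map_add' := fun f g => Subtype.ext (op_ext fun ξ p => by simp [hM, add_mul])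
      commutes' := fun c => Subtype.ext (op_ext fun ξ p => by
        simp [hM, Algebra.algebraMap_eq_smul_one])
      map_star' := fun f => Subtype.ext (op_star (Equiv.refl _) (hM f) fun ξ p => by
        simp [hM]) }
  refine ⟨π, hM, fun τ hτ f => ?_⟩
  let e : ℤ × X ≃ ℤ × X := (Equiv.subRight 1).prodCongr (Equiv.refl X)
  obtain ⟨U, hU⟩ := op_ex e (a := fun _ => 1) zero_le_one fun _ => norm_one.le
  obtain ⟨V, hV⟩ := op_ex e.symm (a := fun _ => 1) zero_le_one fun _ => norm_one.le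
  have m1 : U ∈ cross h := mem _ (Or.inr fun ξ p => (hU ξ p).trans (one_mul _))
  have m2 : V ∈ cross h := by
    rw [op_star e hU (S := V) fun ξ p => by simp [hV]]
    exact star_mem m1
  have e1 : (⟨U, m1⟩ * ⟨V, m2⟩ : cross h) = 1 :=
    Subtype.ext (op_ext fun ξ p => by simp [hU, hV])
  have e2 : π (f.comp ⟨h, h.continuous⟩) = ⟨V, m2⟩ * π f * ⟨U, m1⟩ :=
    Subtype.ext (op_ext fun ξ p => by
      change M _ ξ p = V (M f (U ξ)) p
      rw [hV, hM, hM, hU, e.apply_symm_apply, one_mul, one_mul]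
      change f (h ((h ^ p.1) p.2)) * _ = f ((h ^ (p.1 + 1)) p.2) * _
      rw [add_comm, zpow_one_add, Homeomorph.mul_apply])
  rw [e2, hτ.2.2, ← mul_assoc, e1, one_mul]

theorem trace_ind {q : ℕ} {Y : Set X} (hY : Marker h q Y) (hq : 0 < q) {g : C(X, ℂ)}
    (g1 : ∀ x ∈ Y, g x = 1) (g0 : ∀ x ∉ Y, g x = 0) (μ : C(X, ℂ) →ₗ[ℂ] ℂ) (μ1 : μ 1 = 1)
    (hμ : ∀ f, μ (f.comp ⟨h, h.continuous⟩) = μ f) : μ g = 1 / q := by
  let G : ℕ → C(X, ℂ) := fun j => g.comp ⟨(h ^ (j : ℤ) : X ≃ₜ X), Homeomorph.continuous _⟩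
  have h1 : ∀ j, μ (G j) = μ g := fun j => by
    induction j with
    | zero => exact congrArg μ (ContinuousMap.ext fun x => by simp [G])
    | succ j ih =>
      rw [← ih, ← hμ (G j)]
      exact congrArg μ (ContinuousMap.ext fun x => by simp [G, pow_succ, zpow_add_one])
  have q0 : (0 : ℤ) < q := by exact_mod_cast hq
  have h2 : ∑ j ∈ Finset.range q, G j = 1 := by
    ext x
    obtain ⟨l, hl⟩ := hY.cov x
    have a1 : ∀ j : ℕ, (h ^ (j : ℤ)) x ∈ Y ↔ (q : ℤ) ∣ j - l := fun j => by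
      rw [← hY.ret _ hl, ← Homeomorph.mul_apply, ← zpow_add, sub_add_cancel]
    have a2 := Int.emod_nonneg l q0.ne'
    have a3 := Int.emod_lt_of_pos l q0
    have a4 : (q : ℤ) ∣ ((l % q).toNat : ℤ) - l := by
      rw [Int.toNat_of_nonneg a2]
      exact Int.dvd_iff_emod_eq_zero.2 (by simp)
    rw [ContinuousMap.coe_sum, Finset.sum_apply, Finset.sum_eq_single (l % q).toNat]
    · exact g1 _ ((a1 _).2 a4)
    · refine fun j hj e => g0 _ fun k => e ?_
      have a5 := dvd_sub ((a1 j).1 k) a4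
      have a6 := Finset.mem_range.1 hj
      have := Int.eq_zero_of_abs_lt_dvd a5 (abs_lt.2 ⟨by omega, by omega⟩)
      omega
    · exact fun k => absurd (Finset.mem_range.2 (by omega)) k
  have h3 := congrArg μ h2
  rw [map_sum, Finset.sum_congr rfl fun j _ => h1 j, Finset.sum_const, Finset.card_range,
    nsmul_eq_mul, μ1] at h3
  rw [eq_div_iff (Nat.cast_ne_zero.2 hq.ne'), mul_comm, h3]

end Vale.Agent.P093
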