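import Vale.Agent.P093.Defs

/-! P093 Prop (TASK). Finite propagation. Helper names start with `prp_`.
`FP.expand`: `lp.ext`, both sides vanish outside the finite set (`lp.single_apply`, `lp.coeFn_sum`, `Finset.sum_apply`).
The set of `T` with `∃ R, FP R T` contains the generators and the scalars and is closed under sums, products (`FP.expand` for the right factor) and `star` (`(star T) (dl p') p = conj (T (dl p) p')` from `lp.inner_single_left`, `ContinuousLinearMap.adjoint_inner_right`); `StarAlgebra.adjoin_induction`.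
`fp_approx`: `x` lies in the closure of the product set (`mem_closure_pi`, `closure_pi_set`), `mem_closure_iff`; take the supremum of the finitely many `R`. -/

open Filter Topology Set

noncomputable section

namespace Vale.Agent.P093

variable {X : Type} [TopologicalSpace X] {h : X ≃ₜ X} {R R' : ℕ} {T : Hs X →L[ℂ] Hs X}

theorem dl_apply (p p' : ℤ × X) [Decidable (p' = p)] : dl p p' = if p' = p then 1 else 0 := by
  classical
  unfold dl
  rw [lp.single_apply]
  by_cases hp : p' = p
  · subst hp
    simp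
  · simp [hp]

theorem FP.mono (hT : FP R T) (hR : R ≤ R') : FP R' T :=
  ⟨fun p p' hp => ⟨(hT.supp p p' hp).1, (hT.supp p p' hp).2.trans (by exact_mod_cast hR)⟩, hT.cont⟩

theorem prp_sum_apply {ι : Type} (s : Finset ι) (c : ι → ℂ) (ξ : ι → Hs X) (p : ℤ × X) :
    (∑ l ∈ s, c l • ξ l) p = ∑ l ∈ s, c l * ξ l p := by
  rw [lp.coeFn_sum, Finset.sum_apply]
  refine Finset.sum_congr rfl fun l _ => ?_
  rw [lp.coeFn_smul, Pi.smul_apply, smul_eq_mul]

theorem FP.expand (hT : FP R T) (j : ℤ) (y : X) :
    T (dl (j, y)) = ∑ l ∈ Finset.Icc (j - R) (j + R), T (dl (j, y)) (l, y) • dl (l, y) := by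
  classical
  refine lp.ext (funext fun p => ?_)
  rw [prp_sum_apply]
  obtain ⟨i, z⟩ := p
  by_cases hz : z = y
  · subst hz
    by_cases hi : i ∈ Finset.Icc (j - R) (j + R)
    · rw [Finset.sum_eq_single i]
      · rw [dl_apply, if_pos rfl, mul_one]
      · intro l _ hl
        rw [dl_apply, if_neg (fun e => hl (Prod.ext_iff.1 e).1.symm), mul_zero]
      · intro hi'
        exact absurd hi hi'
    · rw [Finset.sum_eq_zero]
      · by_contra h0
        have h1 := (hT.supp _ _ h0).2
        rw [abs_le] at h1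
        dsimp only at h1
        exact hi (Finset.mem_Icc.2 ⟨by linarith [h1.1], by linarith [h1.2]⟩)
      · intro l hl
        rw [dl_apply, if_neg, mul_zero]
        intro e
        have e1 : i = l := (Prod.ext_iff.1 e).1
        exact hi (e1 ▸ hl)
  · rw [Finset.sum_eq_zero]
    · by_contra h0
      exact hz (hT.supp _ _ h0).1
    · intro l _
      rw [dl_apply, if_neg (fun e => hz (Prod.ext_iff.1 e).2), mul_zero]

theorem prp_diag {g : ℤ × X → ℂ} (hg : ∀ i, Continuous fun y => g (i, y))
    (hT : ∀ ξ p, T ξ p = g p * ξ p) : FP 0 T := by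
  classical
  refine ⟨fun p p' hp => ?_, fun i j => ?_⟩
  · rw [hT, dl_apply] at hp
    have e : p = p' := by
      by_contra e
      exact hp (by rw [if_neg e, mul_zero])
    subst e
    simp
  · have e : (fun y => T (dl (j, y)) (i, y)) = fun y => g (i, y) * if i = j then 1 else 0 := by
      funext y
      rw [hT, dl_apply]
      by_cases hij : i = j
      · subst hij
        rw [if_pos rfl, if_pos rfl]
      · rw [if_neg hij, if_neg fun e => hij (Prod.ext_iff.1 e).1]
    rw [e]
    exact (hg i).mul continuous_const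

theorem prp_shift (hT : ∀ ξ p, T ξ p = ξ (p.1 - 1, p.2)) : FP 1 T := by
  classical
  refine ⟨fun p p' hp => ?_, fun i j => ?_⟩
  · rw [hT, dl_apply] at hp
    have e : (p.1 - 1, p.2) = p' := by
      by_contra e
      exact hp (if_neg e)
    subst e
    simp
  · have e : (fun y => T (dl (j, y)) (i, y)) = fun _ => if i - 1 = j then 1 else 0 := by
      funext y
      rw [hT, dl_apply]
      by_cases hij : i - 1 = j
      · subst hij
        rw [if_pos rfl, if_pos rfl]
      · rw [if_neg hij, if_neg fun e => hij (Prod.ext_iff.1 e).1]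
    rw [e]
    exact continuous_const

theorem prp_add {S : Hs X →L[ℂ] Hs X} (hS : FP R S) (hT : FP R T) : FP R (S + T) := by
  have e : ∀ ξ p, (S + T) ξ p = S ξ p + T ξ p := fun ξ p => by
    rw [ContinuousLinearMap.add_apply, lp.coeFn_add, Pi.add_apply]
  refine ⟨fun p p' hp => ?_, fun i j => ?_⟩
  · rw [e] at hp
    by_cases h0 : S (dl p') p = 0
    · rw [h0, zero_add] at hp
      exact hT.supp _ _ hp
    · exact hS.supp _ _ h0
  · simp only [e]
    exact (hS.cont i j).add (hT.cont i j)

theorem prp_mul {S : Hs X →L[ℂ] Hs X} (hS : FP R S) (hT : FP R' T) : FP (R + R') (S * T) := by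
  have e : ∀ j y p, (S * T) (dl (j, y)) p =
      ∑ l ∈ Finset.Icc (j - R') (j + R'), T (dl (j, y)) (l, y) * S (dl (l, y)) p := fun j y p => by
    have e1 : (S * T) (dl (j, y)) =
        ∑ l ∈ Finset.Icc (j - R') (j + R'), T (dl (j, y)) (l, y) • S (dl (l, y)) := by
      rw [ContinuousLinearMap.mul_apply]
      conv_lhs => rw [hT.expand j y]
      rw [map_sum]
      exact Finset.sum_congr rfl fun l _ => map_smul _ _ _
    rw [e1, prp_sum_apply]
  refine ⟨fun p p' hp => ?_, fun i j => ?_⟩
  · obtain ⟨j, y⟩ := p'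
    rw [e] at hp
    obtain ⟨l, hl, h0⟩ := Finset.exists_ne_zero_of_sum_ne_zero hp
    have h1 := hS.supp _ _ (right_ne_zero_of_mul h0)
    refine ⟨h1.1, ?_⟩
    have h2 := abs_le.1 h1.2
    have h3 := Finset.mem_Icc.1 hl
    dsimp only at h2 ⊢
    rw [abs_le]
    push_cast
    constructor <;> linarith [h2.1, h2.2, h3.1, h3.2]
  · simp only [e]
    exact continuous_finsetSum _ fun l _ => (hT.cont l j).mul (hS.cont i l)

theorem prp_inner (p : ℤ × X) (ξ : Hs X) : inner ℂ (dl p) ξ = ξ p := by
  classical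
  have e : dl p = lp.single 2 p 1 := by
    refine lp.ext (funext fun p' => ?_)
    rw [dl_apply, lp.single_apply, Pi.single_apply]
  rw [e, lp.inner_single_left]
  simp

theorem prp_star (hT : FP R T) : FP R (star T) := by
  have e : ∀ p p', (star T) (dl p') p = starRingEnd ℂ (T (dl p) p') := fun p p' => by
    rw [← prp_inner, ContinuousLinearMap.star_eq_adjoint, ContinuousLinearMap.adjoint_inner_right,
      ← inner_conj_symm, prp_inner]
  refine ⟨fun p p' hp => ?_, fun i j => ?_⟩
  · rw [e] at hp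
    have h1 := hT.supp p' p fun h0 => hp (by rw [h0, map_zero])
    exact ⟨h1.1.symm, by rw [abs_sub_comm]; exact h1.2⟩
  · simp only [e]
    exact Complex.continuous_conj.comp (hT.cont j i)

theorem prp_adjoin (hT : T ∈ StarAlgebra.adjoin ℂ (gens h)) : ∃ R, FP R T := by
  induction hT using StarAlgebra.adjoin_induction with
  | mem T hT =>
    rcases hT with ⟨f, hf⟩ | hf
    · exact ⟨0, prp_diag (g := fun p => f ((h ^ p.1) p.2))
        (fun i => f.continuous.comp (h ^ i).continuous) hf⟩
    · exact ⟨1, prp_shift hf⟩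
  | algebraMap c =>
    refine ⟨0, prp_diag (g := fun _ => c) (fun _ => continuous_const) fun ξ p => ?_⟩
    rw [Algebra.algebraMap_eq_smul_one, ContinuousLinearMap.smul_apply,
      ContinuousLinearMap.one_apply, lp.coeFn_smul, Pi.smul_apply, smul_eq_mul]
  | add S T _ _ hS hT =>
    obtain ⟨R, hS⟩ := hS
    obtain ⟨R', hT⟩ := hT
    exact ⟨max R R', prp_add (hS.mono (le_max_left _ _)) (hT.mono (le_max_right _ _))⟩
  | mul S T _ _ hS hT =>
    obtain ⟨R, hS⟩ := hS
    obtain ⟨R', hT⟩ := hT
    exact ⟨R + R', prp_mul hS hT⟩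
  | star T _ hT =>
    obtain ⟨R, hT⟩ := hT
    exact ⟨R, prp_star hT⟩

theorem fp_approx {J : Type} [Fintype J] {x : J → Hs X →L[ℂ] Hs X} (hx : ∀ j, x j ∈ cross h)
    {O : Set (J → Hs X →L[ℂ] Hs X)} (hO : IsOpen O) (hxO : x ∈ O) :
    ∃ (R : ℕ) (x' : J → Hs X →L[ℂ] Hs X), x' ∈ O ∧ ∀ j, FP R (x' j) := by
  have h1 : x ∈ closure (Set.pi univ fun _ : J =>
      (StarAlgebra.adjoin ℂ (gens h) : Set (Hs X →L[ℂ] Hs X))) := by
    rw [mem_closure_pi]
    exact fun j _ => hx j
  obtain ⟨x', hx', h2⟩ := mem_closure_iff.1 h1 O hO hxO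
  choose r hr using fun j => prp_adjoin (h := h) (h2 j (mem_univ j))
  exact ⟨Finset.univ.sup r, x', hx', fun j =>
    (hr j).mono (Finset.le_sup (f := r) (Finset.mem_univ j))⟩

end Vale.Agent.P093
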