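import Mathlib

/-! P093: the notions of the problem. -/

open Filter Topology Set
open scoped ENNReal NNReal ComplexOrder

noncomputable section

namespace Vale.Agent.P093

section Dim

variable {X : Type} [TopologicalSpace X]

/-- A finite open cover. -/
def IsCover (𝒰 : Set (Set X)) : Prop := 𝒰.Finite ∧ (∀ U ∈ 𝒰, IsOpen U) ∧ ⋃₀ 𝒰 = univ

/-- The least order of a finite open refinement of `𝒰`. -/
def leastOrd (𝒰 : Set (Set X)) : ℕ :=
  sInf {n | ∃ 𝒱 : Set (Set X), IsCover 𝒱 ∧ (∀ V ∈ 𝒱, ∃ U ∈ 𝒰, V ⊆ U) ∧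
    ∀ x, {V ∈ 𝒱 | x ∈ V}.ncard ≤ n + 1}

/-- The join of the covers `h ^ (-j) 𝒰`, `0 ≤ j < N`. -/
def joinCov (h : X ≃ₜ X) (𝒰 : Set (Set X)) (N : ℕ) : Set (Set X) :=
  {W | ∃ c : Fin N → Set X, (∀ j, c j ∈ 𝒰) ∧ W = ⋂ j : Fin N, h^[j] ⁻¹' c j}

/-- Mean dimension. -/
def mdim (h : X ≃ₜ X) : ℝ≥0∞ :=
  ⨆ (𝒰 : Set (Set X)) (_ : IsCover 𝒰),
    limsup (fun N : ℕ => (leastOrd (joinCov h 𝒰 N) : ℝ≥0∞) / N) atTop

end Dim

section Comparison

/-- The `(m + 1)`-th root of a positive element. -/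
def rt {B : Type} [CStarAlgebra B] [PartialOrder B] [StarOrderedRing B] (b : B) (m : ℕ) : B :=
  b ^ ((m : ℝ) + 1)⁻¹

variable {A : Type} [CStarAlgebra A]

/-- Tracial states. -/
def IsTracial (τ : A →ₗ[ℂ] ℂ) : Prop :=
  τ 1 = 1 ∧ (∀ x, 0 ≤ τ (star x * x)) ∧ ∀ x y, τ (x * y) = τ (y * x)

variable [PartialOrder A] [StarOrderedRing A] {n : ℕ}

/-- The dimension function of `τ`. -/
def dimFn (τ : A →ₗ[ℂ] ℂ) (a : CStarMatrix (Fin n) (Fin n) A) : ℝ :=
  limsup (fun m : ℕ => (τ (∑ i, rt a m i i)).re) atTop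

/-- Cuntz subequivalence. -/
def CuntzLE (a b : CStarMatrix (Fin n) (Fin n) A) : Prop :=
  ∃ x : ℕ → CStarMatrix (Fin n) (Fin n) A, Tendsto (fun k => star (x k) * b * x k) atTop (𝓝 a)

variable (A) in
/-- Comparison bounds. -/
def IsBound (r : ℝ) : Prop :=
  ∀ (n : ℕ) (a b : CStarMatrix (Fin n) (Fin n) A), 0 ≤ a → 0 ≤ b →
    (∀ τ, IsTracial τ → dimFn τ a + r < dimFn τ b) → CuntzLE a b

end Comparison

/-- The radius of comparison. -/
def rc (A : Type) [CStarAlgebra A] : ℝ≥0∞ :=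
  letI := CStarAlgebra.spectralOrder A
  haveI := CStarAlgebra.spectralOrderedRing A
  ⨅ (r : ℝ≥0) (_ : IsBound A r), (r : ℝ≥0∞)

section Cross

variable {X : Type} [TopologicalSpace X]

/-- The Hilbert space of the regular representation. -/
abbrev Hs (X : Type) : Type := lp (fun _ : ℤ × X => ℂ) 2

/-- The operators of the regular covariant representation. -/
def gens (h : X ≃ₜ X) : Set (Hs X →L[ℂ] Hs X) :=
  {T | (∃ f : C(X, ℂ), ∀ ξ p, T ξ p = f ((h ^ p.1) p.2) * ξ p) ∨ ∀ ξ p, T ξ p = ξ (p.1 - 1, p.2)}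

/-- The crossed product. -/
def cross (h : X ≃ₜ X) : StarSubalgebra ℂ (Hs X →L[ℂ] Hs X) :=
  (StarAlgebra.adjoin ℂ (gens h)).topologicalClosure

instance cross_closed (h : X ≃ₜ X) : IsClosed (cross h : Set (Hs X →L[ℂ] Hs X)) :=
  StarSubalgebra.isClosed_topologicalClosure _

end Cross

/-- The sequences which, for every `n`, agree with a translate of the pattern `w n` at all
places where the pattern has a value. -/
def blockSet {K : Type} (w : ℕ → ℤ → Option K) : Set (ℤ → K) :=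
  {x | ∀ n, ∃ k : ℤ, ∀ i c, w n (i + k) = some c → x i = c}

end Vale.Agent.P093
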