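import Vale.Agent.P093.Pat

/-! P093 Win (TASK). Windows with many free places. Helper names start with `win_`.
For each level `m` take `a m` from `exists_window`, `F m = (range N).filter (w m (a m + i) = none)`, `y m i = (w m (i + a m)).getD c₀`. Let `𝒰 = hyperfilter ℕ` (`Nat.hyperfilter_le_atTop`), `x₀` a limit of `y` along `𝒰` in the compact space `ℤ → K` (`IsCompact.ultrafilter_le_nhds` or `isCompact_univ.ultrafilter_le_nhds`), `F` with `F m = F` for `𝒰`-almost all `m` (`Ultrafilter.eventually_exists_mem_iff`/`finite_biUnion_mem_iff` on the powerset), and for each `n` a residue `k` with `a m % q n = k` almost always.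
For `m ≥ n`: `k ∈ offs (w n) (y m)` (`nest_le`, `offs_per`), closed, so `k ∈ offs (w n) x₀`, and `w n (i + k) = none` for `i ∈ F`. -/

open Filter Topology Set

noncomputable section

namespace Vale.Agent.P093

variable {K : Type} [TopologicalSpace K] [T2Space K] [CompactSpace K] {w : ℕ → ℤ → Option K}
  {q : ℕ → ℕ} {h : blockSet w ≃ₜ blockSet w}

omit [TopologicalSpace K] [T2Space K] [CompactSpace K] in
theorem win_set (v : ℤ → Option K) (a : ℤ) (N : ℕ) :
    ∃ G : Finset ℕ, G.card = st v a N ∧ ∀ i ∈ G, i < N ∧ v (a + i) = none :=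
  ⟨_, rfl, fun i hi => by simpa using hi⟩

theorem Pat.exists_win (H : Pat w q h) (c₀ : K) (N : ℕ) : ∃ (x₀ : ℤ → K) (F : Finset ℤ),
    (∀ i ∈ F, 0 ≤ i ∧ i < N) ∧ rho w q * N ≤ F.card ∧
      ∀ x : ℤ → K, (∀ i ∉ F, x i = x₀ i) → x ∈ blockSet w := by
  choose a ha using fun m => exists_window (H.per m) (H.pos m) N
  choose G hG1 hG2 using fun m => win_set (w m) (a m) N
  obtain ⟨x₀, -, hx₀⟩ := isCompact_univ.ultrafilter_le_nhds'
    ((hyperfilter ℕ).map fun m i => (w m (i + a m)).getD c₀) univ_mem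
  have hx : Tendsto (fun m i => (w m (i + a m)).getD c₀) (hyperfilter ℕ) (𝓝 x₀) := hx₀
  obtain ⟨F, -, hF⟩ := (Ultrafilter.eventually_exists_mem_iff (f := hyperfilter ℕ)
    (P := fun F m => G m = F) (Finset.range N).powerset.finite_toSet).1
    (Eventually.of_forall fun m => ⟨G m, Finset.mem_coe.2 (Finset.mem_powerset.2 fun i hi =>
      Finset.mem_range.2 (hG2 m i hi).1), rfl⟩)
  obtain ⟨m₀, hm₀⟩ := hF.exists
  refine ⟨x₀, F.image fun i : ℕ => (i : ℤ), fun i hi => ?_, ?_, fun x hx' n => ?_⟩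
  · obtain ⟨j, hj, rfl⟩ := Finset.mem_image.1 hi
    exact ⟨Int.natCast_nonneg j, Int.ofNat_lt.2 (hG2 m₀ j (hm₀ ▸ hj)).1⟩
  · rw [Finset.card_image_of_injective _ Nat.cast_injective, ← hm₀, hG1]
    exact (mul_le_mul_of_nonneg_right (rho_le w q m₀) (Nat.cast_nonneg N)).trans (ha m₀)
  have hq : (0 : ℤ) < q n := Int.natCast_pos.2 (H.pos n)
  obtain ⟨k, -, hk⟩ := (Ultrafilter.eventually_exists_mem_iff (f := hyperfilter ℕ)
    (P := fun k m => a m % q n = k) (finite_Ico (0 : ℤ) (q n))).1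
    (Eventually.of_forall fun m => ⟨_, ⟨Int.emod_nonneg _ hq.ne', Int.emod_lt_of_pos _ hq⟩, rfl⟩)
  have key : ∀ᶠ m in hyperfilter ℕ, ∀ i c, w n (i + k) = some c → w m (i + a m) = some c := by
    filter_upwards [hk, Nat.hyperfilter_le_atTop (eventually_ge_atTop n)] with m h1 h2 i c hc
    refine H.nest_le h2 ?_
    rw [← Int.emod_add_mul_ediv (a m) (q n), h1, ← add_assoc, per_mul (H.per n), hc]
  have h0 : k ∈ offs (w n) x₀ := (isClosed_offs (w n) k).mem_of_tendsto hx
    (key.mono fun m hm i c hc => by simp only [hm i c hc, Option.getD_some])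
  refine ⟨k, fun i c hc => (hx' i fun hi => ?_).trans (h0 i c hc)⟩
  obtain ⟨j, hj, rfl⟩ := Finset.mem_image.1 hi
  obtain ⟨m, h1, h2⟩ := (key.and hF).exists
  have h3 := (hG2 m j (h2 ▸ hj)).2
  rw [add_comm, h1 j c hc] at h3
  exact Option.some_ne_none c h3

end Vale.Agent.P093
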